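import Mathlib

/-!
# P331 unit C: the finite coin-flipping inequality behind the rank one rule

Every `i` owns two tokens `t i false`, `t i true` of a linear order; all tokens are distinct and
`w` is a monotone value.  For a coin vector `c`, `t i (c i)` is the value token of `i` and
`t i (!c i)` its sample token.  `good` = the `i ∈ P` whose value token beats all sample tokens
of `P`; `algW` = the least value of a good `i` (`0` if there is none).
-/

open scoped NNReal

namespace Vale.Agent.Lib.P331

variable {ι T : Type} [Fintype ι] [DecidableEq ι] [LinearOrder T]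

/-- the elements of `P` whose value token beats all sample tokens of `P` -/
def good (t : ι → Bool → T) (P : Finset ι) (c : ι → Bool) : Finset ι :=
  P.filter (fun i => ∀ j ∈ P, t j (!c j) < t i (c i))

/-- worst case gain of the threshold rule on `P` -/
def algW (w : T → ℝ≥0) (t : ι → Bool → T) (P : Finset ι) (c : ι → Bool) : ℝ≥0 :=
  if h : (good t P c).Nonempty then (good t P c).inf' h (fun i => w (t i (c i))) else 0

/-- generalisation with a floor `z` (value `wz`) and a default `y`, used for the induction: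
good elements must also beat `z`. -/
def goodz (t : ι → Bool → T) (P : Finset ι) (z : WithBot T) (c : ι → Bool) : Finset ι :=
  P.filter (fun i => (∀ j ∈ P, t j (!c j) < t i (c i)) ∧ z < (t i (c i) : WithBot T))

def algZ (w : T → ℝ≥0) (t : ι → Bool → T) (P : Finset ι) (z : WithBot T) (y : ℝ≥0)
    (c : ι → Bool) : ℝ≥0 :=
  if h : (goodz t P z c).Nonempty then (goodz t P z c).inf' h (fun i => w (t i (c i))) else y

/-- value of a floor -/
def wB (w : T → ℝ≥0) : WithBot T → ℝ≥0
  | ⊥ => 0
  | (a : T) => w a

theorem two_mul_sum_update17 (F : (ι → Bool) → ℝ≥0) (i₀ : ι) (b₀ : Bool) :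
    2 * ∑ c, F c =
      ∑ c : ι → Bool, (F (Function.update c i₀ b₀) + F (Function.update c i₀ (!b₀))) := by
  have hinv : Function.Involutive (fun c : ι → Bool => Function.update c i₀ (!c i₀)) := by
    intro c
    funext j
    by_cases hj : j = i₀
    · subst hj; simp
    · simp [Function.update_of_ne hj]
  have h1 : ∑ c, F (Function.update c i₀ (!c i₀)) = ∑ c, F c :=
    Equiv.sum_comp (Function.Involutive.toPerm _ hinv) F
  rw [two_mul]
  nth_rewrite 2 [← h1]
  rw [← Finset.sum_add_distrib]
  apply Finset.sum_congr rfl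
  intro c _
  by_cases hc : c i₀ = b₀
  · have h2 : Function.update c i₀ b₀ = c := by rw [← hc]; exact Function.update_eq_self _ _
    rw [h2, hc]
  · have hc' : c i₀ = !b₀ := by cases h : c i₀ <;> cases b₀ <;> simp_all
    have h2 : Function.update c i₀ (!b₀) = c := by rw [← hc']; exact Function.update_eq_self _ _
    rw [h2, hc', Bool.not_not, add_comm]

theorem goodz_insert_top17 (t : ι → Bool → T) (P' : Finset ι) (i₀ : ι) (hi₀ : i₀ ∉ P') (b₀ : Bool)
    (htop : ∀ j ∈ P', ∀ b, t j b < t i₀ b₀) (hσ : t i₀ (!b₀) < t i₀ b₀) (z : WithBot T)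
    (hzτ : z < (t i₀ b₀ : WithBot T)) (c : ι → Bool) :
    goodz t (insert i₀ P') z (Function.update c i₀ b₀) =
      insert i₀ (goodz t P' (max z (t i₀ (!b₀) : WithBot T)) c) := by
  ext i
  simp only [goodz, Finset.mem_filter, Finset.mem_insert]
  constructor
  · rintro ⟨hi | hi, h1, h2⟩
    · left; exact hi
    · right
      have hne : i ≠ i₀ := fun h => hi₀ (h ▸ hi)
      rw [Function.update_of_ne hne] at h1 h2
      refine ⟨hi, ?_, ?_⟩
      · intro j hj
        have hjne : j ≠ i₀ := fun h => hi₀ (h ▸ hj)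
        have h3 := h1 j (Or.inr hj)
        rwa [Function.update_of_ne hjne] at h3
      · have h3 := h1 i₀ (Or.inl rfl)
        rw [Function.update_self] at h3
        exact max_lt h2 (WithBot.coe_lt_coe.mpr h3)
  · rintro (hi | ⟨hi, h1, h2⟩)
    · subst hi
      refine ⟨Or.inl rfl, ?_, ?_⟩
      · intro j hj
        rw [Function.update_self]
        rcases hj with hj | hj
        · subst hj; rw [Function.update_self]; exact hσ
        · exact htop j hj _
      · rw [Function.update_self]; exact hzτ
    · have hne : i ≠ i₀ := fun h => hi₀ (h ▸ hi)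
      refine ⟨Or.inr hi, ?_, ?_⟩
      · intro j hj
        rw [Function.update_of_ne hne]
        rcases hj with hj | hj
        · subst hj
          rw [Function.update_self]
          exact WithBot.coe_lt_coe.mp (lt_of_le_of_lt (le_max_right _ _) h2)
        · have hjne : j ≠ i₀ := fun h => hi₀ (h ▸ hj)
          rw [Function.update_of_ne hjne]; exact h1 j hj
      · rw [Function.update_of_ne hne]; exact lt_of_le_of_lt (le_max_left _ _) h2

theorem algZ_insert_top17 (w : T → ℝ≥0) (hw : Monotone w) (t : ι → Bool → T) (P' : Finset ι)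
    (i₀ : ι) (hi₀ : i₀ ∉ P') (b₀ : Bool)
    (htop : ∀ j ∈ P', ∀ b, t j b < t i₀ b₀) (hσ : t i₀ (!b₀) < t i₀ b₀) (z : WithBot T)
    (hzτ : z < (t i₀ b₀ : WithBot T)) (y : ℝ≥0) (c : ι → Bool) :
    algZ w t (insert i₀ P') z y (Function.update c i₀ b₀) =
      algZ w t P' (max z (t i₀ (!b₀) : WithBot T)) (w (t i₀ b₀)) c := by
  have hgood := goodz_insert_top17 t P' i₀ hi₀ b₀ htop hσ z hzτ c
  have hne : (goodz t (insert i₀ P') z (Function.update c i₀ b₀)).Nonempty := by
    rw [hgood]; exact Finset.insert_nonempty _ _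
  have hsub : ∀ i ∈ goodz t P' (max z (t i₀ (!b₀) : WithBot T)) c, i ∈ P' := by
    intro i hi
    exact (Finset.mem_filter.mp hi).1
  rw [algZ, dif_pos hne]
  by_cases h : (goodz t P' (max z (t i₀ (!b₀) : WithBot T)) c).Nonempty
  · rw [algZ, dif_pos h]
    apply le_antisymm
    · apply Finset.le_inf'
      intro i hi
      have hi' : i ∈ goodz t (insert i₀ P') z (Function.update c i₀ b₀) := by
        rw [hgood]; exact Finset.mem_insert_of_mem hi
      have hne' : i ≠ i₀ := fun h => hi₀ (h ▸ hsub i hi)
      have h4 := Finset.inf'_le (fun i => w (t i (Function.update c i₀ b₀ i))) hi'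
      simp only [Function.update_of_ne hne'] at h4
      exact h4
    · apply Finset.le_inf'
      intro i hi
      rw [hgood, Finset.mem_insert] at hi
      rcases hi with hi | hi
      · subst hi
        obtain ⟨k, hk⟩ := h
        rw [Function.update_self]
        exact (Finset.inf'_le (fun i => w (t i (c i))) hk).trans
          (hw (htop k (hsub k hk) _).le)
      · have hne' : i ≠ i₀ := fun h => hi₀ (h ▸ hsub i hi)
        rw [Function.update_of_ne hne']
        exact Finset.inf'_le (fun i => w (t i (c i))) hi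
  · rw [algZ, dif_neg h]
    rw [Finset.not_nonempty_iff_eq_empty] at h
    apply le_antisymm
    · have hi' : i₀ ∈ goodz t (insert i₀ P') z (Function.update c i₀ b₀) := by
        rw [hgood]; exact Finset.mem_insert_self _ _
      have h4 := Finset.inf'_le (fun i => w (t i (Function.update c i₀ b₀ i))) hi'
      simp only [Function.update_self] at h4
      exact h4
    · apply Finset.le_inf'
      intro i hi
      rw [hgood, h, Finset.mem_insert] at hi
      rcases hi with hi | hi
      · subst hi; rw [Function.update_self]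
      · exact absurd hi (Finset.notMem_empty _)

theorem algZ_insert_bot17 (w : T → ℝ≥0) (t : ι → Bool → T) (P' : Finset ι)
    (i₀ : ι) (b₀ : Bool)
    (htop : ∀ j ∈ P', ∀ b, t j b < t i₀ b₀) (hσ : t i₀ (!b₀) < t i₀ b₀) (z : WithBot T)
    (y : ℝ≥0) (c : ι → Bool) :
    algZ w t (insert i₀ P') z y (Function.update c i₀ (!b₀)) = y := by
  have hempty : ¬ (goodz t (insert i₀ P') z (Function.update c i₀ (!b₀))).Nonempty := by
    rintro ⟨i, hi⟩
    simp only [goodz, Finset.mem_filter, Finset.mem_insert] at hi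
    obtain ⟨hi, h1, -⟩ := hi
    have h2 := h1 i₀ (Or.inl rfl)
    rw [Function.update_self, Bool.not_not] at h2
    rcases hi with hi | hi
    · subst hi
      rw [Function.update_self] at h2
      exact absurd h2 (not_lt.mpr hσ.le)
    · exact absurd h2 (not_lt.mpr (htop i hi _).le)
  rw [algZ, dif_neg hempty]

theorem sup_insert_top17 (w : T → ℝ≥0) (hw : Monotone w) (t : ι → Bool → T) (P' : Finset ι)
    (i₀ : ι) (b₀ : Bool) (htop : ∀ j ∈ P', ∀ b, t j b < t i₀ b₀) (c : ι → Bool) :
    (insert i₀ P').sup (fun i => w (t i (Function.update c i₀ b₀ i))) = w (t i₀ b₀) := by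
  rw [Finset.sup_insert, Function.update_self]
  apply sup_eq_left.mpr
  apply Finset.sup_le
  intro j hj
  exact hw (htop j hj _).le

theorem sup_insert_bot17 (w : T → ℝ≥0) (t : ι → Bool → T) (P' : Finset ι)
    (i₀ : ι) (hi₀ : i₀ ∉ P') (b : Bool) (c : ι → Bool) :
    (insert i₀ P').sup (fun i => w (t i (Function.update c i₀ b i))) =
      max (P'.sup (fun i => w (t i (c i)))) (w (t i₀ b)) := by
  rw [Finset.sup_insert, Function.update_self, max_comm]
  congr 1
  apply Finset.sup_congr rfl
  intro j hj
  have hjne : j ≠ i₀ := fun h => hi₀ (h ▸ hj)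
  rw [Function.update_of_ne hjne]

theorem wB_max17 (w : T → ℝ≥0) (hw : Monotone w) (z : WithBot T) (a : T) :
    wB w (max z (a : WithBot T)) = max (wB w z) (w a) := by
  induction z using WithBot.recBotCoe with
  | bot => simp [wB]
  | coe b =>
    rw [← WithBot.coe_max]
    simp only [wB]
    exact hw.map_max

theorem wB_le_of_lt17 (w : T → ℝ≥0) (hw : Monotone w) (z : WithBot T) (a : T)
    (h : z < (a : WithBot T)) : wB w z ≤ w a := by
  induction z using WithBot.recBotCoe with
  | bot => simp [wB]
  | coe b =>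
    simp only [wB]
    exact hw (WithBot.coe_lt_coe.mp h).le

/-- the owner of the largest token -/
theorem exists_top17 (t : ι → Bool → T)
    (hinj : Function.Injective (fun q : ι × Bool => t q.1 q.2)) (P : Finset ι) (hP : P.Nonempty) :
    ∃ i₀ ∈ P, ∃ b₀ : Bool, (∀ j ∈ P.erase i₀, ∀ b, t j b < t i₀ b₀) ∧ t i₀ (!b₀) < t i₀ b₀ := by
  obtain ⟨q, hq, hmax⟩ := Finset.exists_max_image (P ×ˢ (Finset.univ : Finset Bool))
    (fun q => t q.1 q.2) (hP.product Finset.univ_nonempty)
  refine ⟨q.1, (Finset.mem_product.mp hq).1, q.2, ?_, ?_⟩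
  · intro j hj b
    have h1 := hmax (j, b) (Finset.mem_product.mpr ⟨Finset.mem_of_mem_erase hj, Finset.mem_univ _⟩)
    refine lt_of_le_of_ne h1 ?_
    intro h2
    have h3 : ((j, b) : ι × Bool) = q := hinj h2
    exact Finset.ne_of_mem_erase hj (by rw [← h3])
  · have h1 := hmax (q.1, !q.2)
      (Finset.mem_product.mpr ⟨(Finset.mem_product.mp hq).1, Finset.mem_univ _⟩)
    refine lt_of_le_of_ne h1 ?_
    intro h2
    have h3 : ((q.1, !q.2) : ι × Bool) = q := hinj h2
    have h4 : (!q.2) = q.2 := by
      exact congrArg Prod.snd h3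
    cases hq2 : q.2 <;> simp [hq2] at h4

/-- C1 (induction on `P.card`, remove the owner `i₀` of the largest token `t i₀ b₀` of `P`;
use `2 * ∑ c, F c = ∑ c, (F (Function.update c i₀ true) + F (Function.update c i₀ false))`.
If the largest token is below `z` (or `P = ∅`): `algZ = y` for all `c`.  Otherwise:
for `c i₀ = !b₀`: `algZ P z y c = y`, `P.sup = max (P'.sup) (w (t i₀ (!b₀)))`;
for `c i₀ = b₀`: `P.sup = w (t i₀ b₀) =: y₁`, `algZ P z y c = algZ P' (max z (t i₀ (!b₀))) y₁ c`;
then the induction hypothesis for `(P', max z (t i₀ (!b₀)), y₁)` closes with equality.) -/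
theorem core_floor (w : T → ℝ≥0) (hw : Monotone w) (t : ι → Bool → T)
    (hinj : Function.Injective (fun q : ι × Bool => t q.1 q.2)) (P : Finset ι) (z : WithBot T)
    (hz : ∀ i ∈ P, ∀ b, z ≠ (t i b : WithBot T))
    (y : ℝ≥0) (hy : ∀ i ∈ P, ∀ b, w (t i b) ≤ y) (hzy : wB w z ≤ y) :
    ∑ c : ι → Bool, (y + max (P.sup (fun i => w (t i (c i)))) (wB w z)) ≤
      2 * ∑ c : ι → Bool, algZ w t P z y c := by
  induction hn : P.card generalizing P z y with
  | zero =>
    rw [Finset.card_eq_zero] at hn
    subst hn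
    rw [Finset.mul_sum]
    apply Finset.sum_le_sum
    intro c _
    have h1 : algZ w t ∅ z y c = y := by
      rw [algZ, dif_neg]
      simp [goodz]
    rw [h1, two_mul]
    gcongr
    simpa using hzy
  | succ n ih =>
    have hP : P.Nonempty := by
      rw [← Finset.card_pos]; omega
    obtain ⟨i₀, hi₀P, b₀, htop, hσ⟩ := exists_top17 t hinj P hP
    have hins : insert i₀ (P.erase i₀) = P := Finset.insert_erase hi₀P
    have hi₀ : i₀ ∉ P.erase i₀ := Finset.notMem_erase _ _
    have hcard : (P.erase i₀).card = n := by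
      rw [Finset.card_erase_of_mem hi₀P]; omega
    rcases lt_or_gt_of_ne (hz i₀ hi₀P b₀) with hzτ | hzτ
    · -- the top token beats the floor
      have hIH := ih (P.erase i₀) (max z (t i₀ (!b₀) : WithBot T)) (by
          intro i hi b
          rcases max_choice z (t i₀ (!b₀) : WithBot T) with h | h
          · rw [h]; exact hz i (Finset.mem_of_mem_erase hi) b
          · rw [h]
            intro h2
            have h3 : ((i₀, !b₀) : ι × Bool) = (i, b) := hinj (WithBot.coe_injective h2)
            exact Finset.ne_of_mem_erase hi (congrArg Prod.fst h3).symm)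
        (w (t i₀ b₀)) (fun i hi b => hw (htop i hi b).le)
        (wB_le_of_lt17 w hw _ _ (max_lt hzτ (WithBot.coe_lt_coe.mpr hσ))) hcard
      have hA := two_mul_sum_update17 (fun c => algZ w t P z y c) i₀ b₀
      have hL := two_mul_sum_update17
        (fun c => y + max (P.sup (fun i => w (t i (c i)))) (wB w z)) i₀ b₀
      have hA' : 2 * ∑ c, algZ w t P z y c =
          ∑ c, (algZ w t (P.erase i₀) (max z (t i₀ (!b₀) : WithBot T)) (w (t i₀ b₀)) c + y) := by
        rw [hA]
        apply Finset.sum_congr rfl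
        intro c _
        rw [← hins, algZ_insert_top17 w hw t _ i₀ hi₀ b₀ htop hσ z hzτ y c,
          algZ_insert_bot17 w t _ i₀ b₀ htop hσ z y c, hins]
      have hL' : 2 * ∑ c : ι → Bool, (y + max (P.sup (fun i => w (t i (c i)))) (wB w z)) =
          ∑ c : ι → Bool, ((w (t i₀ b₀) + max ((P.erase i₀).sup (fun i => w (t i (c i))))
            (wB w (max z (t i₀ (!b₀) : WithBot T)))) + 2 * y) := by
        rw [hL]
        apply Finset.sum_congr rfl
        intro c _
        rw [← hins, sup_insert_top17 w hw t _ i₀ b₀ htop c,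
          sup_insert_bot17 w t _ i₀ hi₀ (!b₀) c, hins, wB_max17 w hw,
          max_eq_left (wB_le_of_lt17 w hw _ _ hzτ), max_assoc, max_comm (w (t i₀ (!b₀)))]
        ring
      have h2 : (2 : ℝ≥0) * ∑ c : ι → Bool, (y + max (P.sup (fun i => w (t i (c i)))) (wB w z)) ≤
          2 * (2 * ∑ c, algZ w t P z y c) := by
        rw [hL', hA']
        have e1 : ∑ c : ι → Bool, ((w (t i₀ b₀) + max ((P.erase i₀).sup (fun i => w (t i (c i))))
            (wB w (max z (t i₀ (!b₀) : WithBot T)))) + 2 * y) =
            ∑ c : ι → Bool, (w (t i₀ b₀) + max ((P.erase i₀).sup (fun i => w (t i (c i))))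
            (wB w (max z (t i₀ (!b₀) : WithBot T)))) + ∑ _c : ι → Bool, 2 * y :=
          Finset.sum_add_distrib
        have e2 : 2 * ∑ c, (algZ w t (P.erase i₀) (max z (t i₀ (!b₀) : WithBot T))
            (w (t i₀ b₀)) c + y) =
            2 * ∑ c, algZ w t (P.erase i₀) (max z (t i₀ (!b₀) : WithBot T)) (w (t i₀ b₀)) c +
              ∑ _c : ι → Bool, 2 * y := by
          rw [Finset.sum_add_distrib, mul_add, Finset.mul_sum (s := Finset.univ) (f := fun _ => y)]
        rw [e1, e2]
        gcongr
      exact (mul_le_mul_iff_right₀ (by norm_num : (0 : ℝ≥0) < 2)).mp h2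
    · -- the floor beats everything
      rw [Finset.mul_sum]
      apply Finset.sum_le_sum
      intro c _
      have h1 : algZ w t P z y c = y := by
        rw [algZ, dif_neg]
        rintro ⟨i, hi⟩
        simp only [goodz, Finset.mem_filter] at hi
        obtain ⟨hiP, -, h3⟩ := hi
        have h4 : t i (c i) ≤ t i₀ b₀ := by
          by_cases hii : i = i₀
          · subst hii
            by_cases hb : c i = b₀
            · rw [hb]
            · have hb' : c i = !b₀ := by cases h : c i <;> cases b₀ <;> simp_all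
              rw [hb']; exact hσ.le
          · exact (htop i (Finset.mem_erase.mpr ⟨hii, hiP⟩) _).le
        exact absurd (h3.trans_le (WithBot.coe_le_coe.mpr h4)) (not_lt.mpr hzτ.le)
      rw [h1, two_mul]
      gcongr
      apply max_le _ hzy
      apply Finset.sup_le
      intro i hi
      exact hy i hi _

theorem algW_eq_algZ17 (w : T → ℝ≥0) (t : ι → Bool → T) (P : Finset ι) (c : ι → Bool) :
    algW w t P c = algZ w t P ⊥ 0 c := by
  have h : goodz t P ⊥ c = good t P c := by
    ext i
    simp [goodz, good, WithBot.bot_lt_coe]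
  unfold algW algZ
  simp only [h]

/-- C2: the rank one inequality (same first step as in C1, then `core_floor` for `P.erase i₀`). -/
theorem core (w : T → ℝ≥0) (hw : Monotone w) (t : ι → Bool → T)
    (hinj : Function.Injective (fun q : ι × Bool => t q.1 q.2)) (P : Finset ι) :
    ∑ c : ι → Bool, P.sup (fun i => w (t i (c i))) ≤ 2 * ∑ c : ι → Bool, algW w t P c := by
  rcases P.eq_empty_or_nonempty with rfl | hP
  · simp
  obtain ⟨i₀, hi₀P, b₀, htop, hσ⟩ := exists_top17 t hinj P hP
  have hins : insert i₀ (P.erase i₀) = P := Finset.insert_erase hi₀P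
  have hi₀ : i₀ ∉ P.erase i₀ := Finset.notMem_erase _ _
  have hzτ : (⊥ : WithBot T) < (t i₀ b₀ : WithBot T) := WithBot.bot_lt_coe _
  have hIH := core_floor w hw t hinj (P.erase i₀) (max ⊥ (t i₀ (!b₀) : WithBot T)) (by
      intro i hi b
      rw [max_eq_right bot_le]
      intro h2
      have h3 : ((i₀, !b₀) : ι × Bool) = (i, b) := hinj (WithBot.coe_injective h2)
      exact Finset.ne_of_mem_erase hi (congrArg Prod.fst h3).symm)
    (w (t i₀ b₀)) (fun i hi b => hw (htop i hi b).le)
    (wB_le_of_lt17 w hw _ _ (max_lt hzτ (WithBot.coe_lt_coe.mpr hσ)))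
  have hA := two_mul_sum_update17 (fun c => algZ w t P ⊥ 0 c) i₀ b₀
  have hL := two_mul_sum_update17 (fun c => P.sup (fun i => w (t i (c i)))) i₀ b₀
  have hA' : 2 * ∑ c, algZ w t P ⊥ 0 c =
      ∑ c, algZ w t (P.erase i₀) (max ⊥ (t i₀ (!b₀) : WithBot T)) (w (t i₀ b₀)) c := by
    rw [hA]
    apply Finset.sum_congr rfl
    intro c _
    rw [← hins, algZ_insert_top17 w hw t _ i₀ hi₀ b₀ htop hσ ⊥ hzτ 0 c,
      algZ_insert_bot17 w t _ i₀ b₀ htop hσ ⊥ 0 c, hins, add_zero]
  have hL' : 2 * ∑ c : ι → Bool, P.sup (fun i => w (t i (c i))) =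
      ∑ c : ι → Bool, (w (t i₀ b₀) + max ((P.erase i₀).sup (fun i => w (t i (c i))))
        (wB w (max ⊥ (t i₀ (!b₀) : WithBot T)))) := by
    rw [hL]
    apply Finset.sum_congr rfl
    intro c _
    rw [← hins, sup_insert_top17 w hw t _ i₀ b₀ htop c,
      sup_insert_bot17 w t _ i₀ hi₀ (!b₀) c, hins, max_eq_right (bot_le : (⊥ : WithBot T) ≤ _)]
    rfl
  have h2 : (2 : ℝ≥0) * ∑ c : ι → Bool, P.sup (fun i => w (t i (c i))) ≤
      2 * (2 * ∑ c, algW w t P c) := by
    simp only [algW_eq_algZ17]
    rw [hL', hA']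
    exact hIH
  exact (mul_le_mul_iff_right₀ (by norm_num : (0 : ℝ≥0) < 2)).mp h2

end Vale.Agent.Lib.P331
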