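import Mathlib

/-!
# P331: single-sample prophet inequalities against the almighty adversary: the model

`E` is the finite ground set, `Indep` the family of feasible (independent) sets.
-/

open MeasureTheory
open scoped NNReal ENNReal

namespace Vale.Agent.Lib.P331

variable {E : Type} [Fintype E] [DecidableEq E]

/-- total value of a set of elements -/
def val (v : E → ℝ≥0) (A : Finset E) : ℝ≥0 := ∑ e ∈ A, v e

open Classical in
/-- the offline optimum `max {v(I) : I independent}` -/
noncomputable def opt (Indep : Finset E → Prop) (v : E → ℝ≥0) : ℝ≥0 :=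
  (Finset.univ.filter (fun I : Finset E => Indep I)).sup (val v)

/-- an arrival order: a list containing every element exactly once (head arrives first) -/
def IsOrder (l : List E) : Prop := l.Nodup ∧ ∀ e, e ∈ l

/-- An online rule with seed space `Ω`.  `dec past e S ω v` is the decision (accept or not) on the
arriving element `e`, when `past` is the list of the elements that arrived before (latest first),
`S` the sample, `ω` the seed, `v` the values.  The rule is non-anticipating: the decision only
depends on the values of `e` and of the elements of `past`; and it is measurable. -/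
structure Rule (E : Type) (Ω : Type) [MeasurableSpace Ω] where
  dec : List E → E → (E → ℝ≥0) → Ω → (E → ℝ≥0) → Bool
  nonant : ∀ past e S ω v v', (∀ f, f = e ∨ f ∈ past → v f = v' f) →
    dec past e S ω v = dec past e S ω v'
  meas : ∀ past e, Measurable (fun x : (E → ℝ≥0) × Ω × (E → ℝ≥0) => dec past e x.1 x.2.1 x.2.2)

/-- the set accepted by the decision function `d` on the remaining arrivals `l`, after `past` -/
def run (d : List E → E → Bool) : List E → List E → Finset E
  | _, [] => ∅
  | past, e :: rest => (if d past e then {e} else ∅) ∪ run d (e :: past) rest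

/-- the set accepted by the rule when the elements arrive in the order `l` -/
def Rule.accepted {Ω : Type} [MeasurableSpace Ω] (R : Rule E Ω) (S : E → ℝ≥0) (ω : Ω)
    (v : E → ℝ≥0) (l : List E) : Finset E :=
  run (fun past e => R.dec past e S ω v) [] l

/-- the rule always keeps its accepted set independent -/
def Feasible (Indep : Finset E → Prop) {Ω : Type} [MeasurableSpace Ω] (R : Rule E Ω) : Prop :=
  ∀ S ω v l, IsOrder l → Indep (R.accepted S ω v l)

/-- `c`-competitiveness against the almighty adversary: for all laws `D e` and every order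
`π` chosen as a function of the sample, the values and the seed,
`c * E[OPT(V)] ≤ E[v(A)]`.  (Expectations are `lintegral`s; all functions `π` are allowed.) -/
def Competitive (Indep : Finset E → Prop) {Ω : Type} [MeasurableSpace Ω] (ρ : Measure Ω)
    (R : Rule E Ω) (c : ℝ≥0) : Prop :=
  ∀ D : E → Measure ℝ≥0, (∀ e, IsProbabilityMeasure (D e)) →
    ∀ π : (E → ℝ≥0) → (E → ℝ≥0) → Ω → List E, (∀ S V ω, IsOrder (π S V ω)) →
      (c : ℝ≥0∞) * ∫⁻ V, (opt Indep V : ℝ≥0∞) ∂(Measure.pi D) ≤
        ∫⁻ x : ((E → ℝ≥0) × (E → ℝ≥0)) × Ω,
          (val x.1.2 (R.accepted x.1.1 x.2 x.1.2 (π x.1.1 x.1.2 x.2)) : ℝ≥0∞)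
          ∂(((Measure.pi D).prod (Measure.pi D)).prod ρ)

/-- there is a one-sample online rule (with some seed) that is feasible and `c`-competitive
against the almighty adversary -/
def HasRule (Indep : Finset E → Prop) (c : ℝ≥0) : Prop :=
  ∃ (Ω : Type) (_ : MeasurableSpace Ω) (ρ : Measure Ω) (_ : IsProbabilityMeasure ρ)
    (R : Rule E Ω), Feasible Indep R ∧ Competitive Indep ρ R c

/-- the class `k` of a labelling `g` -/
def cell {κ : Type} [DecidableEq κ] (g : E → Option κ) (k : κ) : Finset E :=
  Finset.univ.filter (fun e => g e = some k)

/-- The `α`-partition property: a finite probability distribution `p` over labellings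
`cls ω : E → Option κ` (`none` = discarded) such that every set of labelled elements with pairwise
different labels is independent, and on average the best such set is worth `OPT / α`. -/
structure PartitionProperty (Indep : Finset E → Prop) (α : ℝ≥0) (Ω₀ κ : Type) [Fintype Ω₀]
    [Fintype κ] [DecidableEq κ] (p : Ω₀ → ℝ≥0) (cls : Ω₀ → E → Option κ) : Prop where
  sum_p : ∑ ω, p ω = 1
  indep : ∀ ω (I : Finset E), (∀ e ∈ I, cls ω e ≠ none) →
    (∀ e ∈ I, ∀ f ∈ I, cls ω e = cls ω f → e = f) → Indep I
  approx : ∀ v : E → ℝ≥0, opt Indep v ≤ α * ∑ ω, p ω * ∑ k, (cell (cls ω) k).sup v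

end Vale.Agent.Lib.P331
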