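import Vale.Agent.Lib.P331.Defs

/-!
# P331 unit G: partition matroids and graphic matroids have the partition property
-/

open scoped NNReal ENNReal

namespace Vale.Agent.Lib.P331

variable {E : Type} [Fintype E] [DecidableEq E]

/-- G0: a set of labelled elements with pairwise different labels is worth at most the sum of the
class maxima -/
theorem val_le_sum_cell_sup {κ : Type} [Fintype κ] [DecidableEq κ] (g : E → Option κ)
    (v : E → ℝ≥0) (A : Finset E) (h0 : ∀ e ∈ A, g e ≠ none)
    (h1 : ∀ e ∈ A, ∀ f ∈ A, g e = g f → e = f) :
    val v A ≤ ∑ k, (cell g k).sup v := by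
  classical
  unfold val
  have h2 : ∀ e ∈ A, v e = ∑ k, if g e = some k then v e else 0 := by
    intro e he
    obtain ⟨k0, hk0⟩ := Option.ne_none_iff_exists'.mp (h0 e he)
    rw [hk0]
    simp
  rw [Finset.sum_congr rfl h2, Finset.sum_comm]
  refine Finset.sum_le_sum fun k _ => ?_
  rw [← Finset.sum_filter]
  rcases (A.filter (fun e => g e = some k)).eq_empty_or_nonempty with h | ⟨e, he⟩
  · rw [h]; simp
  · have hs : A.filter (fun e => g e = some k) = {e} := by
      rw [Finset.eq_singleton_iff_unique_mem]
      refine ⟨he, fun f hf => ?_⟩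
      simp only [Finset.mem_filter] at he hf
      exact h1 f hf.1 e he.1 (hf.2.trans he.2.symm)
    rw [hs, Finset.sum_singleton]
    simp only [Finset.mem_filter] at he
    exact Finset.le_sup (f := v) (by simp [cell, he.2])

/-- G0b: the optimum is attained (if the empty set is independent, or in general: `opt` is a sup
over a finite set, `Finset.sup_le`) : to bound `opt` it suffices to bound every independent set -/
theorem opt_le_of_forall (Indep : Finset E → Prop) (v : E → ℝ≥0) (B : ℝ≥0)
    (h : ∀ I, Indep I → val v I ≤ B) : opt Indep v ≤ B := by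
  classical
  unfold opt
  refine Finset.sup_le fun I hI => ?_
  simp only [Finset.mem_filter] at hI
  exact h I hI.2

/-! ## partition matroids (unit capacities) -/

/-- independence in the partition matroid with parts `part ⁻¹' {k}`: at most one element in every
part -/
def PartIndep {κ : Type} (part : E → κ) (I : Finset E) : Prop :=
  ∀ e ∈ I, ∀ f ∈ I, part e = part f → e = f

/-- G4 -/
theorem partition_partition {κ : Type} [Fintype κ] [DecidableEq κ] (part : E → κ) :
    PartitionProperty (PartIndep part) 1 Unit κ (fun _ => 1) (fun _ e => some (part e)) := by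
  refine ⟨by simp, ?_, ?_⟩
  · intro ω I _ h e he f hf hp
    exact h e he f hf (by rw [hp])
  · intro v
    simp only [Finset.univ_unique, Finset.sum_singleton, one_mul]
    refine opt_le_of_forall _ _ _ fun I hI => ?_
    refine val_le_sum_cell_sup _ v I (by simp) ?_
    intro e he f hf h
    exact hI e he f hf (Option.some.inj h)

/-! ## graphic matroids of multigraphs -/

variable {V : Type} [Fintype V] [LinearOrder V]

/-- the simple graph on `V` formed by the edges `ed e`, `e ∈ I` -/
def gr (ed : E → Sym2 V) (I : Finset E) : SimpleGraph V :=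
  SimpleGraph.fromEdgeSet (ed '' (I : Set E))

/-- independence in the graphic matroid of the multigraph with vertex set `V`, edge set `E` and
incidence `ed`: no loop, no two parallel edges, no cycle -/
def Forest (ed : E → Sym2 V) (I : Finset E) : Prop :=
  (∀ e ∈ I, ¬ (ed e).IsDiag) ∧ Set.InjOn ed (I : Set E) ∧ (gr ed I).IsAcyclic

theorem gr_insert (ed : E → Sym2 V) (I : Finset E) (e : E) (a b : V) (h : ed e = s(a, b)) :
    gr ed (insert e I) = gr ed I ⊔ SimpleGraph.edge a b := by
  unfold gr SimpleGraph.edge
  rw [← SimpleGraph.fromEdgeSet_union, Finset.coe_insert, Set.image_insert_eq, h, Set.union_comm]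
  rfl

theorem eq_of_reachable_of_isolated (G : SimpleGraph V) (u w : V) (hiso : ∀ x, ¬ G.Adj u x)
    (h : G.Reachable u w) : u = w := by
  obtain ⟨p⟩ := h
  cases p with
  | nil => rfl
  | cons hadj _ => exact absurd hadj (hiso _)

/-- G1: loopless edge sets with pairwise different upper endpoints are forests.
Induction on `I.card`: take `e ∈ I` with the largest `u = (ed e).sup`, `ed e = s(u, a)`, `a < u`;
`u` is isolated in `gr ed (I.erase e)`, so `¬ Reachable u a`; conclude with `gr_insert` and
`SimpleGraph.IsAcyclic.sup_edge_of_not_reachable`. -/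
theorem forest_of_injOn_sup (ed : E → Sym2 V) (I : Finset E) (h0 : ∀ e ∈ I, ¬ (ed e).IsDiag)
    (h : Set.InjOn (fun e => (ed e).sup) (I : Set E)) : Forest ed I := by
  revert h0 h
  refine Finset.induction_on_max_value (fun e => (ed e).sup) I ?_ ?_
  · intro _ _
    refine ⟨by simp, by simp, ?_⟩
    have : gr ed (∅ : Finset E) = ⊥ := by simp [gr]
    rw [this]
    exact SimpleGraph.isAcyclic_bot
  · intro e s hes hmax ih h0 h
    have ihs := ih (fun f hf => h0 f (Finset.mem_insert_of_mem hf))
      (h.mono (by simp))
    refine ⟨h0, ?_, ?_⟩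
    · intro x hx y hy hxy
      exact h hx hy (by simp [hxy])
    · obtain ⟨a, b, hab⟩ : ∃ a b, ed e = s(a, b) := by
        induction hq : ed e using Sym2.ind with
        | _ a b => exact ⟨a, b, rfl⟩
      have hne : a ≠ b := by
        have := h0 e (Finset.mem_insert_self e s)
        rw [hab] at this
        simpa using this
      have hlt : ∀ f ∈ s, (ed f).sup < a ⊔ b := by
        intro f hf
        have h1 : (ed f).sup ≤ (ed e).sup := hmax f hf
        have h2 : (ed f).sup ≠ (ed e).sup := by
          intro h3
          have := h (Finset.mem_coe.2 (Finset.mem_insert_of_mem hf))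
            (Finset.mem_coe.2 (Finset.mem_insert_self e s)) h3
          exact hes (this ▸ hf)
        have h4 := lt_of_le_of_ne h1 h2
        rw [hab] at h4
        simpa using h4
      have hiso : ∀ x, ¬ (gr ed s).Adj (a ⊔ b) x := by
        intro x hx
        unfold gr at hx
        rw [SimpleGraph.fromEdgeSet_adj] at hx
        obtain ⟨⟨f, hf, hfe⟩, _⟩ := hx
        have := hlt f hf
        rw [hfe] at this
        simp at this
      have hnr : ¬ (gr ed s).Reachable a b := by
        intro hr
        rcases le_total a b with hle | hle
        · rw [sup_eq_right.2 hle] at hiso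
          exact hne (eq_of_reachable_of_isolated _ _ _ hiso hr.symm).symm
        · rw [sup_eq_left.2 hle] at hiso
          exact hne (eq_of_reachable_of_isolated _ _ _ hiso hr)
      rw [gr_insert ed s e a b hab]
      exact SimpleGraph.IsAcyclic.sup_edge_of_not_reachable hnr ihs.2.2

/-- G1': the same for lower endpoints (same proof, or `forest_of_injOn_sup (V := Vᵒᵈ)`). -/
theorem forest_of_injOn_inf (ed : E → Sym2 V) (I : Finset E) (h0 : ∀ e ∈ I, ¬ (ed e).IsDiag)
    (h : Set.InjOn (fun e => (ed e).inf) (I : Set E)) : Forest ed I :=
  forest_of_injOn_sup (V := Vᵒᵈ) ed I h0 h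

/-- G2 (strengthened for the induction).  `R` = a set of pairwise non reachable vertices.
Induction on `I` (`Finset.induction_on`): for `insert e I`, `ed e = s(a, b)`, `a ≠ b`, by
`gr_insert` and `SimpleGraph.isAcyclic_sup_fromEdgeSet_iff`: `¬ (gr ed I).Reachable a b`
(`Adj a b` is excluded by `InjOn`).  Not both `a` and `b` are `gr ed I`-reachable from `R`
(otherwise the two vertices of `R` are reachable in `gr ed (insert e I)`, so equal, so `a`, `b`
reachable).  If `b` is not: apply the induction hypothesis to `insert b R`, and send `e` to `b`. -/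
theorem exists_orientation_aux (ed : E → Sym2 V) (I : Finset E) (h : Forest ed I) (R : Set V)
    (hR : ∀ r ∈ R, ∀ r' ∈ R, (gr ed I).Reachable r r' → r = r') :
    ∃ φ : E → V, (∀ e ∈ I, φ e ∈ ed e ∧ φ e ∉ R) ∧ Set.InjOn φ (I : Set E) := by
  induction I using Finset.induction_on generalizing R with
  | empty => exact ⟨fun e => (ed e).sup, by simp, by simp⟩
  | insert e I heI ih =>
    obtain ⟨a, b, hab⟩ : ∃ a b, ed e = s(a, b) := by
      induction hq : ed e using Sym2.ind with
      | _ a b => exact ⟨a, b, rfl⟩
    have hne : a ≠ b := by
      have := h.1 e (Finset.mem_insert_self e I)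
      rw [hab] at this
      simpa using this
    have hle : gr ed I ≤ gr ed (insert e I) := by
      rw [gr_insert ed I e a b hab]
      exact le_sup_left
    have hI : Forest ed I :=
      ⟨fun f hf => h.1 f (Finset.mem_insert_of_mem hf), h.2.1.mono (by simp), h.2.2.anti hle⟩
    have hadj' : (gr ed (insert e I)).Adj a b := by
      rw [gr_insert ed I e a b hab]
      right
      rw [SimpleGraph.edge_adj]
      exact ⟨Or.inl ⟨rfl, rfl⟩, hne⟩
    have hnr : ¬ (gr ed I).Reachable a b := by
      intro hr
      have hac := h.2.2
      rw [gr_insert ed I e a b hab, SimpleGraph.isAcyclic_sup_fromEdgeSet_iff] at hac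
      rcases hac.2 hr with h1 | h1
      · exact hne h1
      · unfold gr at h1
        rw [SimpleGraph.fromEdgeSet_adj] at h1
        obtain ⟨⟨f, hf, hfe⟩, _⟩ := h1
        have : f = e := h.2.1 (Finset.mem_coe.2 (Finset.mem_insert_of_mem hf))
          (Finset.mem_coe.2 (Finset.mem_insert_self e I)) (hfe.trans hab.symm)
        exact heI (this ▸ hf)
    have key : ∀ c, c ∈ ed e → (∀ r ∈ R, ¬ (gr ed I).Reachable r c) →
        ∃ φ : E → V, (∀ f ∈ insert e I, φ f ∈ ed f ∧ φ f ∉ R) ∧
          Set.InjOn φ ((insert e I : Finset E) : Set E) := by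
      intro c hc hcR
      obtain ⟨φ, h1, h2⟩ := ih hI (insert c R) (by
        intro r hr r' hr' hrr
        rcases hr with rfl | hr
        · rcases hr' with rfl | hr'
          · rfl
          · exact absurd hrr.symm (hcR r' hr')
        · rcases hr' with rfl | hr'
          · exact absurd hrr (hcR r hr)
          · exact hR r hr r' hr' (hrr.mono hle))
      have hcn : c ∉ R := fun hcR' => hcR c hcR' (SimpleGraph.Reachable.refl c)
      refine ⟨Function.update φ e c, ?_, ?_⟩
      · intro f hf
        rcases Finset.mem_insert.1 hf with rfl | hf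
        · simpa using ⟨hc, hcn⟩
        · have hfe : f ≠ e := fun h3 => heI (h3 ▸ hf)
          rw [Function.update_of_ne hfe]
          exact ⟨(h1 f hf).1, fun h4 => (h1 f hf).2 (Set.mem_insert_of_mem _ h4)⟩
      · intro f hf g hg hfg
        rw [Finset.mem_coe] at hf hg
        rcases Finset.mem_insert.1 hf with rfl | hf
        · rcases Finset.mem_insert.1 hg with rfl | hg
          · rfl
          · have hge : g ≠ f := fun h3 => heI (h3 ▸ hg)
            rw [Function.update_self, Function.update_of_ne hge] at hfg
            exact absurd (hfg ▸ Set.mem_insert c R) (h1 g hg).2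
        · have hfe : f ≠ e := fun h3 => heI (h3 ▸ hf)
          have hfR := (h1 f hf).2
          rcases Finset.mem_insert.1 hg with rfl | hg
          · rw [Function.update_self, Function.update_of_ne hfe] at hfg
            exact absurd (hfg.symm ▸ Set.mem_insert c R) hfR
          · have hge : g ≠ e := fun h3 => heI (h3 ▸ hg)
            rw [Function.update_of_ne hfe, Function.update_of_ne hge] at hfg
            exact h2 hf hg hfg
    by_cases hb : ∀ r ∈ R, ¬ (gr ed I).Reachable r b
    · exact key b (by rw [hab]; simp) hb
    · push Not at hb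
      obtain ⟨r', hr', hrb⟩ := hb
      refine key a (by rw [hab]; simp) ?_
      intro r hr hra
      have h5 : (gr ed (insert e I)).Reachable r r' :=
        ((hra.mono hle).trans hadj'.reachable).trans (hrb.mono hle).symm
      have h6 := hR r hr r' hr' h5
      subst h6
      exact hnr (hra.symm.trans hrb)

/-- G2: the edges of a forest can be sent injectively to one of their endpoints -/
theorem exists_orientation (ed : E → Sym2 V) (I : Finset E) (h : Forest ed I) :
    ∃ φ : E → V, (∀ e ∈ I, φ e ∈ ed e) ∧ Set.InjOn φ (I : Set E) := by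
  obtain ⟨φ, h1, h2⟩ := exists_orientation_aux ed I h ∅ (by simp)
  exact ⟨φ, fun e he => (h1 e he).1, h2⟩

/-- the two labellings: by the upper endpoint (`true`), by the lower endpoint (`false`);
loops are discarded -/
def gcls (ed : E → Sym2 V) (b : Bool) (e : E) : Option V :=
  if (ed e).IsDiag then none else some (if b then (ed e).sup else (ed e).inf)

theorem mem_sym2_sup_or_inf (s : Sym2 V) (x : V) (hx : x ∈ s) : x = s.sup ∨ x = s.inf := by
  induction s using Sym2.ind with
  | _ a b =>
    rw [Sym2.sup_mk, Sym2.inf_mk]
    rcases Sym2.mem_iff.mp hx with rfl | rfl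
    · rcases le_total x b with h | h
      · right; simp [h]
      · left; simp [h]
    · rcases le_total a x with h | h
      · left; simp [h]
      · right; simp [h]

theorem gcls_ne_none (ed : E → Sym2 V) (b : Bool) (e : E) :
    gcls ed b e ≠ none ↔ ¬ (ed e).IsDiag := by
  unfold gcls
  by_cases h : (ed e).IsDiag <;> simp [h]

theorem gcls_of_not_diag (ed : E → Sym2 V) (b : Bool) (e : E) (h : ¬ (ed e).IsDiag) :
    gcls ed b e = some (if b then (ed e).sup else (ed e).inf) := by
  unfold gcls
  simp [h]

/-- G3: graphic matroids have the 2-partition property.  `indep`: G1, G1'.  `approx`: by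
`opt_le_of_forall`; for a forest `I` take `φ` from G2, split `I` into
`A = {e | φ e = (ed e).sup}` and `B = I \ A` (there `φ e = (ed e).inf`), and use G0 twice. -/
theorem graphic_partition (ed : E → Sym2 V) :
    PartitionProperty (Forest ed) 2 Bool V (fun _ => 2⁻¹) (gcls ed) := by
  classical
  refine ⟨?_, ?_, ?_⟩
  · rw [Fintype.sum_bool]
    exact NNReal.eq (by push_cast; norm_num)
  · intro b I h0 h1
    have hd : ∀ e ∈ I, ¬ (ed e).IsDiag := fun e he => (gcls_ne_none ed b e).mp (h0 e he)
    cases b with
    | true =>
      refine forest_of_injOn_sup ed I hd ?_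
      intro e he f hf hef
      refine h1 e he f hf ?_
      rw [gcls_of_not_diag ed true e (hd e he), gcls_of_not_diag ed true f (hd f hf)]
      simpa using hef
    | false =>
      refine forest_of_injOn_inf ed I hd ?_
      intro e he f hf hef
      refine h1 e he f hf ?_
      rw [gcls_of_not_diag ed false e (hd e he), gcls_of_not_diag ed false f (hd f hf)]
      simpa using hef
  · intro v
    rw [Fintype.sum_bool, ← mul_add, ← mul_assoc]
    have h2 : (2 : ℝ≥0) * 2⁻¹ = 1 := NNReal.eq (by push_cast; norm_num)
    rw [h2, one_mul]
    refine opt_le_of_forall _ _ _ fun I hI => ?_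
    obtain ⟨φ, hφ, hinj⟩ := exists_orientation ed I hI
    have hd : ∀ e ∈ I, ¬ (ed e).IsDiag := hI.1
    have hsplit : val v I = val v (I.filter (fun e => φ e = (ed e).sup))
        + val v (I.filter (fun e => ¬ φ e = (ed e).sup)) := by
      unfold val
      rw [Finset.sum_filter_add_sum_filter_not]
    rw [hsplit]
    refine add_le_add ?_ ?_
    · refine val_le_sum_cell_sup _ v _ ?_ ?_
      · intro e he
        simp only [Finset.mem_filter] at he
        exact (gcls_ne_none ed true e).mpr (hd e he.1)
      · intro e he f hf h
        simp only [Finset.mem_filter] at he hf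
        rw [gcls_of_not_diag ed true e (hd e he.1), gcls_of_not_diag ed true f (hd f hf.1)] at h
        have h' : (ed e).sup = (ed f).sup := by simpa using h
        exact hinj he.1 hf.1 (by rw [he.2, hf.2, h'])
    · refine val_le_sum_cell_sup _ v _ ?_ ?_
      · intro e he
        simp only [Finset.mem_filter] at he
        exact (gcls_ne_none ed false e).mpr (hd e he.1)
      · intro e he f hf h
        simp only [Finset.mem_filter] at he hf
        rw [gcls_of_not_diag ed false e (hd e he.1), gcls_of_not_diag ed false f (hd f hf.1)] at h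
        have h' : (ed e).inf = (ed f).inf := by simpa using h
        have he' : φ e = (ed e).inf :=
          (mem_sym2_sup_or_inf _ _ (hφ e he.1)).resolve_left he.2
        have hf' : φ f = (ed f).inf :=
          (mem_sym2_sup_or_inf _ _ (hφ f hf.1)).resolve_left hf.2
        exact hinj he.1 hf.1 (by rw [he', hf', h'])

end Vale.Agent.Lib.P331
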