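import Vale.Agent.Lib.P331.Defs

/-!
# P331 unit T (part 1, pure combinatorics): greedy selection among eligible elements,
the dyadic inequality and the coin lemma for the elements above the largest sample
-/

open scoped NNReal ENNReal

namespace Vale.Agent.Lib.P331

variable {E : Type} [Fintype E] [DecidableEq E]

/-- the independence axioms of a matroid -/
structure IsMatroid (Indep : Finset E → Prop) : Prop where
  empty : Indep ∅
  hered : ∀ I J, Indep J → I ⊆ J → Indep I
  aug : ∀ I J, Indep I → Indep J → I.card < J.card → ∃ e ∈ J, e ∉ I ∧ Indep (insert e I)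

open Classical in
/-- the greedy set built from the arrivals `past` (latest first) among the eligible elements `b` -/
noncomputable def grd (Indep : Finset E → Prop) (b : E → Bool) : List E → Finset E
  | [] => ∅
  | e :: past =>
    if b e = true ∧ Indep (insert e (grd Indep b past)) then insert e (grd Indep b past)
    else grd Indep b past

open Classical in
/-- the greedy decision -/
noncomputable def decG (Indep : Finset E → Prop) (b : E → Bool) (past : List E) (e : E) : Bool :=
  decide (b e = true ∧ Indep (insert e (grd Indep b past)))

open Classical in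
/-- the largest size of an independent set of eligible elements -/
noncomputable def rkB (Indep : Finset E → Prop) (b : E → Bool) : ℕ :=
  (Finset.univ.filter (fun I : Finset E => Indep I ∧ ∀ e ∈ I, b e = true)).sup Finset.card

/-- T1a (induction on `l`, `past` general) -/
theorem run_decG (Indep : Finset E → Prop) (b : E → Bool) (past l : List E) :
    run (decG Indep b) past l ∪ grd Indep b past = grd Indep b (l.reverse ++ past) := by
  induction l generalizing past with
  | nil => simp [run]
  | cons e rest ih =>
    have h1 : (e :: rest).reverse ++ past = rest.reverse ++ (e :: past) := by simp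
    rw [h1, ← ih (e :: past)]
    by_cases hc : b e = true ∧ Indep (insert e (grd Indep b past))
    · have h2 : decG Indep b past e = true := by simp only [decG, decide_eq_true_eq]; exact hc
      have h3 : grd Indep b (e :: past) = insert e (grd Indep b past) := by
        simp only [grd]; rw [if_pos hc]
      rw [run, h2, h3]
      ext x
      simp only [if_true, Finset.mem_union, Finset.mem_singleton, Finset.mem_insert]
      tauto
    · have h2 : decG Indep b past e = false := by simp only [decG, decide_eq_false_iff_not]; exact hc
      have h3 : grd Indep b (e :: past) = grd Indep b past := by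
        simp only [grd]; rw [if_neg hc]
      rw [run, h2, h3]
      simp

/-- T1a' -/
theorem grd_congr (Indep : Finset E → Prop) (b b' : E → Bool) (l : List E)
    (h : ∀ e ∈ l, b e = b' e) : grd Indep b l = grd Indep b' l := by
  induction l with
  | nil => rfl
  | cons e past ih =>
    have h1 := ih (fun f hf => h f (List.mem_cons_of_mem _ hf))
    have h2 := h e List.mem_cons_self
    simp only [grd]
    rw [h1, h2]

/-- T1b -/
theorem grd_indep {Indep : Finset E → Prop} (h : IsMatroid Indep) (b : E → Bool) (l : List E) :
    Indep (grd Indep b l) := by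
  induction l with
  | nil => exact h.empty
  | cons e past ih =>
    simp only [grd]
    split_ifs with hc
    · exact hc.2
    · exact ih

/-- T1c -/
theorem grd_elig (Indep : Finset E → Prop) (b : E → Bool) (l : List E) :
    ∀ e ∈ grd Indep b l, b e = true := by
  induction l with
  | nil => intro e he; simp [grd] at he
  | cons e past ih =>
    intro f hf
    simp only [grd] at hf
    split_ifs at hf with hc
    · rcases Finset.mem_insert.1 hf with rfl | hf
      · exact hc.1
      · exact ih f hf
    · exact ih f hf

/-- T1d (induction on `l`; `hered` for the elements rejected earlier) -/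
theorem grd_maximal {Indep : Finset E → Prop} (h : IsMatroid Indep) (b : E → Bool) (l : List E) :
    ∀ e ∈ l, b e = true → e ∉ grd Indep b l → ¬ Indep (insert e (grd Indep b l)) := by
  induction l with
  | nil => intro e he; simp at he
  | cons e past ih =>
    intro f hf hbf hfn
    simp only [grd] at hfn ⊢
    split_ifs at hfn ⊢ with hc
    · rw [Finset.mem_insert, not_or] at hfn
      have hfp : f ∈ past := by
        rcases List.mem_cons.1 hf with h1 | h1
        · exact absurd h1 hfn.1
        · exact h1
      intro hI
      refine ih f hfp hbf hfn.2 (h.hered _ _ hI ?_)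
      intro x hx
      rcases Finset.mem_insert.1 hx with rfl | hx
      · exact Finset.mem_insert_self _ _
      · exact Finset.mem_insert_of_mem (Finset.mem_insert_of_mem hx)
    · rcases List.mem_cons.1 hf with rfl | h1
      · intro hI
        exact hc ⟨hbf, hI⟩
      · exact ih f h1 hbf hfn

/-- T1e (from T1d and `aug`) -/
theorem rkB_le_card_grd {Indep : Finset E → Prop} (h : IsMatroid Indep) (b : E → Bool)
    (l : List E) (hl : ∀ e, e ∈ l) : rkB Indep b ≤ (grd Indep b l).card := by
  classical
  unfold rkB
  refine Finset.sup_le ?_
  intro I hI
  have hI := (Finset.mem_filter.1 hI)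
  by_contra hlt
  rw [not_le] at hlt
  obtain ⟨e, heI, heG, hins⟩ := h.aug _ _ (grd_indep h b l) hI.2.1 hlt
  exact grd_maximal h b l e (hl e) (hI.2.2 e heI) heG hins

/-- T1f: whatever the order, greedy with eligibility `τ ≤ v e` collects `τ * rkB` -/
theorem thr_mul_rkB_le {Indep : Finset E → Prop} (h : IsMatroid Indep) (b : E → Bool)
    (τ : ℝ≥0) (v : E → ℝ≥0) (hb : ∀ e, b e = true → τ ≤ v e) (l : List E) (hl : IsOrder l) :
    τ * rkB Indep b ≤ val v (run (decG Indep b) [] l) := by
  have h1 : run (decG Indep b) [] l = grd Indep b l.reverse := by
    have := run_decG Indep b [] l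
    simpa [grd] using this
  rw [h1]
  have h2 : rkB Indep b ≤ (grd Indep b l.reverse).card :=
    rkB_le_card_grd h b l.reverse (fun e => List.mem_reverse.2 (hl.2 e))
  have h3 : (grd Indep b l.reverse).card • τ ≤ ∑ e ∈ grd Indep b l.reverse, v e :=
    Finset.card_nsmul_le_sum _ _ _ (fun e he => hb e (grd_elig Indep b _ e he))
  unfold val
  refine le_trans ?_ h3
  rw [nsmul_eq_mul, mul_comm]
  exact mul_le_mul_of_nonneg_right (by exact_mod_cast h2) zero_le

/-- T2: the dyadic inequality (induction on `L`) -/
theorem dyadic_le (X a : ℝ≥0) (ha : a ≤ X) (L : ℕ) :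
    a ≤ X / 2 ^ L + ∑ j ∈ Finset.range L, (if X / 2 ^ (j + 1) ≤ a then X / 2 ^ (j + 1) else 0) := by
  induction L with
  | zero => simpa using ha
  | succ L ih =>
    rw [Finset.sum_range_succ]
    by_cases h : X / 2 ^ (L + 1) ≤ a
    · rw [if_pos h]
      have e : X / 2 ^ L = X / 2 ^ (L + 1) + X / 2 ^ (L + 1) := by
        rw [pow_succ]
        field_simp
        ring
      rw [e] at ih
      calc a ≤ _ := ih
        _ = _ := by ring
    · rw [if_neg h]
      push Not at h
      exact h.le.trans (le_add_of_nonneg_right zero_le)

theorem coin_single {ι : Type} [DecidableEq ι] (s : ι → ℝ≥0) (N : Finset ι) :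
    ∑ i ∈ N, (if ∀ j ∈ N, j ≠ i → s j < s i then s i else 0) ≤ N.sup s := by
  by_cases h : ∃ i₀ ∈ N, ∀ j ∈ N, j ≠ i₀ → s j < s i₀
  · obtain ⟨i₀, hi₀, h₀⟩ := h
    rw [Finset.sum_eq_single_of_mem i₀ hi₀]
    · rw [if_pos h₀]
      exact Finset.le_sup (f := s) hi₀
    · intro i hi hne
      rw [if_neg]
      intro hc
      exact lt_asymm (hc i₀ hi₀ hne.symm) (h₀ i hi hne)
  · push Not at h
    rw [Finset.sum_eq_zero]
    · exact zero_le
    · intro i hi
      rw [if_neg]
      intro hc
      obtain ⟨j, hj, hne, hle⟩ := h i hi
      exact absurd (hc j hj hne) (not_lt.2 hle)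

/-- T4a: the coin lemma for the elements above the largest sample.  `a i false`, `a i true` are the
two draws of `i`; for the coin vector `c` the value of `i` is `a i (c i)`, its sample `a i (!c i)`.
Proof: exchange the sums, for fixed `i` reindex `c` by the involution
`c ↦ Function.update c i (!c i)`; after that the condition says that `i` is the unique strict
maximiser of the samples, so for fixed `c` at most one `i` contributes, and it contributes
its sample `≤ sup`. -/
theorem coin_above {ι : Type} [Fintype ι] [DecidableEq ι] (a : ι → Bool → ℝ≥0) (N : Finset ι) :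
    ∑ c : ι → Bool, ∑ i ∈ N, (if N.sup (fun j => a j (!c j)) < a i (c i) then a i (c i) else 0) ≤
      ∑ c : ι → Bool, N.sup (fun j => a j (!c j)) := by
  have hinv : ∀ i : ι, Function.Involutive (fun c : ι → Bool => Function.update c i (!c i)) := by
    intro i c
    funext k
    by_cases hk : k = i
    · subst hk; simp
    · simp [Function.update_of_ne hk]
  rw [Finset.sum_comm]
  have h1 : ∀ i ∈ N, ∑ c : ι → Bool,
      (if N.sup (fun j => a j (!c j)) < a i (c i) then a i (c i) else 0) ≤
      ∑ c : ι → Bool, (if ∀ j ∈ N, j ≠ i → a j (!c j) < a i (!c i) then a i (!c i) else 0) := by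
    intro i hi
    rw [← Equiv.sum_comp (hinv i).toPerm]
    refine Finset.sum_le_sum (fun c _ => ?_)
    simp only [Function.Involutive.coe_toPerm, Function.update_self]
    by_cases hc : N.sup (fun j => a j (!Function.update c i (!c i) j)) < a i (!c i)
    · rw [if_pos hc, if_pos]
      intro j hj hne
      refine lt_of_le_of_lt ?_ hc
      have := Finset.le_sup (f := fun j => a j (!Function.update c i (!c i) j)) hj
      simpa only [Function.update_of_ne hne] using this
    · rw [if_neg hc]
      exact zero_le
  refine (Finset.sum_le_sum h1).trans ?_
  rw [Finset.sum_comm]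
  refine Finset.sum_le_sum (fun c _ => ?_)
  convert coin_single (fun j => a j (!c j)) N

end Vale.Agent.Lib.P331
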