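import Vale.Agent.Lib.P331.Main
import Vale.Agent.Lib.P331.Greedy

/-!
# P331 unit T (part 2): every matroid of rank at most `2 ^ L` has a one-sample rule that is
`1 / (L + 4)`-competitive against the almighty adversary
-/

open MeasureTheory
open scoped NNReal ENNReal

namespace Vale.Agent.Lib.P331

variable {E : Type} [Fintype E] [DecidableEq E]

open Classical in
/-- the labelling with a single class, the non-loops -/
noncomputable def g1 (Indep : Finset E → Prop) (e : E) : Option Unit :=
  if Indep {e} then some () else none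

/-- the non-loops -/
noncomputable def nl (Indep : Finset E → Prop) : Finset E := cell (g1 Indep) ()

/-- the largest sample of a non-loop -/
noncomputable def topS (Indep : Finset E → Prop) (S : E → ℝ≥0) : ℝ≥0 := (nl Indep).sup S

/-- the thresholds -/
noncomputable def thr (Indep : Finset E → Prop) (S : E → ℝ≥0) (j : ℕ) : ℝ≥0 :=
  topS Indep S / 2 ^ (j + 1)

/-- eligibility for the threshold number `j` -/
noncomputable def elig (Indep : Finset E → Prop) (j : ℕ) (S v : E → ℝ≥0) (e : E) : Bool :=
  decide (thr Indep S j ≤ v e)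

/-- the decision function: seed `(0, bits)`: the rank one rule on the non-loops;
seed `(j + 1, bits)`: greedy among the elements of value at least `thr j` -/
noncomputable def decL (Indep : Finset E → Prop) (L : ℕ) (past : List E) (e : E) (S : E → ℝ≥0)
    (s : Fin (L + 1) × (E → Bool)) (v : E → ℝ≥0) : Bool :=
  Fin.cases (motive := fun _ => Bool) (decC (fun _ : Unit => g1 Indep) past e S ((), s.2) v)
    (fun j => decG Indep (elig Indep j S v) past e) s.1

theorem measurable_sup_fam {α ι : Type} [MeasurableSpace α] (A : Finset ι)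
    (f : ι → α → ℝ≥0) (hf : ∀ i, Measurable (f i)) :
    Measurable (fun x => A.sup (fun i => f i x)) := by
  classical
  induction A using Finset.induction_on with
  | empty => simp only [Finset.sup_empty]; exact measurable_const
  | insert a s _ ih =>
    simp only [Finset.sup_insert]
    exact (hf a).sup ih

/-- T5a -/
theorem measurable_topS (Indep : Finset E → Prop) :
    Measurable (fun S : E → ℝ≥0 => topS Indep S) := by
  unfold topS
  exact measurable_sup_fam (nl Indep) (fun e => fun S : E → ℝ≥0 => S e)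
    (fun e => measurable_pi_apply e)

theorem measurable_thr (Indep : Finset E → Prop) (j : ℕ) :
    Measurable (fun S : E → ℝ≥0 => thr Indep S j) := by
  unfold thr
  exact (measurable_topS Indep).div_const _

/-- T5b: the eligibility vector is a measurable function of (sample, values) -/
theorem measurable_elig (Indep : Finset E → Prop) (j : ℕ) :
    Measurable (fun x : (E → ℝ≥0) × (E → ℝ≥0) => elig Indep j x.1 x.2) := by
  refine measurable_pi_iff.2 (fun e => ?_)
  refine measurable_to_bool ?_
  have h : (fun x : (E → ℝ≥0) × (E → ℝ≥0) => elig Indep j x.1 x.2 e) ⁻¹' {true} =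
      {x | thr Indep x.1 j ≤ x.2 e} := by
    ext x
    simp only [Set.mem_preimage, Set.mem_singleton_iff, elig, decide_eq_true_eq, Set.mem_ofPred_eq]
  rw [h]
  exact measurableSet_le ((measurable_thr Indep j).comp measurable_fst)
    ((measurable_pi_apply e).comp measurable_snd)

theorem decL_nonant (Indep : Finset E → Prop) (L : ℕ) (past : List E) (e : E) (S : E → ℝ≥0)
    (s : Fin (L + 1) × (E → Bool)) (v v' : E → ℝ≥0) (h : ∀ f, f = e ∨ f ∈ past → v f = v' f) :
    decL Indep L past e S s v = decL Indep L past e S s v' := by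
  obtain ⟨ω, b⟩ := s
  refine Fin.cases ?_ (fun j => ?_) ω
  · exact decC_nonant (fun _ : Unit => g1 Indep) past e S ((), b) v v' h
  · show decG Indep (elig Indep j S v) past e = decG Indep (elig Indep j S v') past e
    have h1 : elig Indep j S v e = elig Indep j S v' e := by
      simp only [elig, h e (Or.inl rfl)]
    have h2 : grd Indep (elig Indep j S v) past = grd Indep (elig Indep j S v') past := by
      refine grd_congr Indep _ _ past (fun f hf => ?_)
      simp only [elig, h f (Or.inr hf)]
    unfold decG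
    rw [h1, h2]

theorem decL_meas (Indep : Finset E → Prop) (L : ℕ) (past : List E) (e : E) :
    Measurable (fun x : (E → ℝ≥0) × (Fin (L + 1) × (E → Bool)) × (E → ℝ≥0) =>
      decL Indep L past e x.1 x.2.1 x.2.2) := by
  have key : Measurable (fun p : ((E → ℝ≥0) × (E → Bool) × (E → ℝ≥0)) × Fin (L + 1) =>
      decL Indep L past e p.1.1 (p.2, p.1.2.1) p.1.2.2) := by
    refine measurable_from_prod_countable_left (fun ω => ?_)
    refine Fin.cases ?_ (fun j => ?_) ω
    · show Measurable (fun x : (E → ℝ≥0) × (E → Bool) × (E → ℝ≥0) =>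
        decC (fun _ : Unit => g1 Indep) past e x.1 ((), x.2.1) x.2.2)
      exact (decC_meas (fun _ : Unit => g1 Indep) past e).comp
        (f := fun x : (E → ℝ≥0) × (E → Bool) × (E → ℝ≥0) => (x.1, ((), x.2.1), x.2.2))
        (by fun_prop)
    · show Measurable (fun x : (E → ℝ≥0) × (E → Bool) × (E → ℝ≥0) =>
        decG Indep (elig Indep j x.1 x.2.2) past e)
      have h1 : Measurable (fun b : E → Bool => decG Indep b past e) := Measurable.of_discrete
      exact h1.comp ((measurable_elig Indep j).comp
        (f := fun x : (E → ℝ≥0) × (E → Bool) × (E → ℝ≥0) => (x.1, x.2.2)) (by fun_prop))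
  exact key.comp (f := fun x : (E → ℝ≥0) × (Fin (L + 1) × (E → Bool)) × (E → ℝ≥0) =>
    ((x.1, x.2.1.2, x.2.2), x.2.1.1)) (by fun_prop)

/-- T6: the rule.  `nonant`: case `0`: `(classRule (fun _ : Unit => g1 Indep)).nonant`; case
`j + 1`: `grd_congr`.  `meas`: split according to the (finitely many) values of `x.2.1.1`; case `0`:
`(classRule _).meas` composed with a measurable map; case `j + 1`: a function of the eligibility
vector (`measurable_elig`, and every function on the finite discrete space `E → Bool` is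
measurable). -/
noncomputable def logRule (Indep : Finset E → Prop) (L : ℕ) :
    Rule E (Fin (L + 1) × (E → Bool)) where
  dec := decL Indep L
  nonant := fun past e S ω v v' h => decL_nonant Indep L past e S ω v v' h
  meas := fun past e => decL_meas Indep L past e

/-- the weights of the seeds -/
noncomputable def pL (L : ℕ) : Fin (L + 1) → ℝ≥0 :=
  Fin.cases (motive := fun _ => ℝ≥0) (4 / ((L : ℝ≥0) + 4)) (fun _ => 1 / ((L : ℝ≥0) + 4))

/-- T7a -/
theorem sum_pL (L : ℕ) : ∑ ω, pL L ω = 1 := by
  have h : (L : ℝ≥0) + 4 ≠ 0 := by positivity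
  rw [Fin.sum_univ_succ]
  simp only [pL, Fin.cases_zero, Fin.cases_succ, Finset.sum_const, Finset.card_univ,
    Fintype.card_fin, nsmul_eq_mul]
  field_simp
  ring

/-- the guaranteed gain for every seed -/
noncomputable def HL (Indep : Finset E → Prop) (L : ℕ) : Fin (L + 1) → St E → ℝ≥0∞ :=
  Fin.cases (motive := fun _ => St E → ℝ≥0∞) (fun y => (gain (g1 Indep) y : ℝ≥0∞))
    (fun j y => ((thr Indep y.1.1 j * rkB Indep (elig Indep j y.1.1 y.1.2) : ℝ≥0) : ℝ≥0∞))

/-- T5c (`measurable_gain`; `measurable_topS`, `measurable_elig`) -/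
theorem measurable_HL (Indep : Finset E → Prop) (L : ℕ) (ω : Fin (L + 1)) :
    Measurable (HL Indep L ω) := by
  refine Fin.cases ?_ (fun j => ?_) ω
  · exact measurable_gain (g1 Indep)
  · show Measurable (fun y : St E =>
      ((thr Indep y.1.1 j * rkB Indep (elig Indep j y.1.1 y.1.2) : ℝ≥0) : ℝ≥0∞))
    refine measurable_coe_nnreal_ennreal.comp ?_
    refine Measurable.mul ((measurable_thr Indep j).comp (measurable_fst.comp measurable_fst)) ?_
    have h1 : Measurable (fun b : E → Bool => ((rkB Indep b : ℕ) : ℝ≥0)) := Measurable.of_discrete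
    exact h1.comp ((measurable_elig Indep j).comp measurable_fst)

/-- T7b: case `0`: the accepted set is `(classRule (fun _ : Unit => g1 Indep)).accepted S ((), s.2) v l`
(by `rfl`), use `gain_le_accepted`; case `j + 1`: `thr_mul_rkB_le`. -/
theorem HL_le_accepted {Indep : Finset E → Prop} (h : IsMatroid Indep) (L : ℕ) (S v : E → ℝ≥0)
    (s : Fin (L + 1) × (E → Bool)) (l : List E) (hl : IsOrder l) :
    HL Indep L s.1 ((S, v), s.2) ≤ (val v ((logRule Indep L).accepted S s v l) : ℝ≥0∞) := by
  obtain ⟨ω, bits⟩ := s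
  refine Fin.cases ?_ (fun j => ?_) ω
  · have h1 := gain_le_accepted (fun _ : Unit => g1 Indep) S v ((), bits) l hl
    exact ENNReal.coe_le_coe.mpr h1
  · have h1 := thr_mul_rkB_le h (elig Indep j S v) (thr Indep S j) v
      (fun e he => of_decide_eq_true he) l hl
    exact ENNReal.coe_le_coe.mpr h1

/-- T7c: case `0`: `accepted_labels` (at most one accepted element, and it is a non-loop);
case `j + 1`: `run_decG` with `past = []` and `grd_indep`. -/
theorem logRule_feasible {Indep : Finset E → Prop} (h : IsMatroid Indep) (L : ℕ) :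
    Feasible Indep (logRule Indep L) := by
  intro S s v l hl
  obtain ⟨ω, bits⟩ := s
  refine Fin.cases ?_ (fun j => ?_) ω
  · have h1 := accepted_labels (fun _ : Unit => g1 Indep) S v ((), bits) l hl
    have hA : (logRule Indep L).accepted S (0, bits) v l =
        (classRule (fun _ : Unit => g1 Indep)).accepted S ((), bits) v l := rfl
    rw [hA]
    rcases ((classRule (fun _ : Unit => g1 Indep)).accepted S ((), bits) v l).eq_empty_or_nonempty
      with h0 | ⟨e, he⟩
    · rw [h0]
      exact h.empty
    · have hlab : ∀ f ∈ (classRule (fun _ : Unit => g1 Indep)).accepted S ((), bits) v l,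
          g1 Indep f = some () := by
        intro f hf
        have := h1.1 f hf
        cases hg : g1 Indep f with
        | none => exact absurd hg this
        | some u => rfl
      have hsing : (classRule (fun _ : Unit => g1 Indep)).accepted S ((), bits) v l = {e} := by
        rw [Finset.eq_singleton_iff_unique_mem]
        refine ⟨he, fun f hf => h1.2 f hf e he ?_⟩
        show g1 Indep f = g1 Indep e
        rw [hlab f hf, hlab e he]
      rw [hsing]
      by_contra hcon
      have := hlab e he
      unfold g1 at this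
      rw [if_neg hcon] at this
      exact absurd this (by simp)
  · have hA : (logRule Indep L).accepted S (j.succ, bits) v l =
        run (decG Indep (elig Indep j S v)) [] l := rfl
    rw [hA]
    have h1 : run (decG Indep (elig Indep j S v)) [] l =
        grd Indep (elig Indep j S v) l.reverse := by
      have := run_decG Indep (elig Indep j S v) [] l
      simpa [grd] using this
    rw [h1]
    exact grd_indep h _ _

/-- the total value of the non-loops above the largest sample -/
noncomputable def above (Indep : Finset E → Prop) (x : St E) : ℝ≥0 :=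
  ∑ e ∈ nl Indep, if topS Indep x.1.1 < x.1.2 e then x.1.2 e else 0

/-- T5d -/
theorem measurable_above (Indep : Finset E → Prop) :
    Measurable (fun x : St E => (above Indep x : ℝ≥0∞)) := by
  refine measurable_coe_nnreal_ennreal.comp ?_
  unfold above
  refine Finset.measurable_sum _ (fun e _ => ?_)
  have m2 : Measurable (fun x : St E => x.1.2 e) := by fun_prop
  refine Measurable.ite ?_ m2 measurable_const
  exact measurableSet_lt ((measurable_topS Indep).comp (measurable_fst.comp measurable_fst)) m2

/-- T5e -/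
theorem measurable_opt (Indep : Finset E → Prop) :
    Measurable (fun V : E → ℝ≥0 => (opt Indep V : ℝ≥0∞)) := by
  refine measurable_coe_nnreal_ennreal.comp ?_
  unfold opt
  refine measurable_sup_fam _ (fun I => fun V : E → ℝ≥0 => val V I) (fun I => ?_)
  unfold val
  exact Finset.measurable_sum _ (fun e _ => measurable_pi_apply e)

/-- T3: by `opt_le_of_forall` (Graphic.lean; copy it or import) it suffices to bound `val V I` for
`I` independent; `I ⊆ nl Indep` by `hered`; for `e ∈ I`: either `topS < V e` (term of `above`) or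
`dyadic_le`; sum over `e ∈ I`: `I.card * (X / 2 ^ L) ≤ X`, and
`(I.filter (thr j ≤ V ·)).card ≤ rkB Indep (elig j)`. -/
theorem opt_le_pointwise {Indep : Finset E → Prop} (h : IsMatroid Indep) (L : ℕ)
    (hL : ∀ I, Indep I → I.card ≤ 2 ^ L) (x : St E) :
    opt Indep x.1.2 ≤ topS Indep x.1.1 +
      ∑ j : Fin L, thr Indep x.1.1 j * rkB Indep (elig Indep j x.1.1 x.1.2) + above Indep x := by
  classical
  obtain ⟨⟨S, V⟩, b⟩ := x
  simp only
  unfold opt
  apply Finset.sup_le
  intro I hI
  have hI' : Indep I := (Finset.mem_filter.mp hI).2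
  have hsub : I ⊆ nl Indep := by
    intro e he
    have h1 : Indep {e} := h.hered _ _ hI' (Finset.singleton_subset_iff.mpr he)
    simp [nl, cell, g1, h1]
  have hpt : ∀ e ∈ I, V e ≤ topS Indep S / 2 ^ L +
      ∑ j : Fin L, (if thr Indep S j ≤ V e then thr Indep S j else 0) +
      (if topS Indep S < V e then V e else 0) := by
    intro e _
    by_cases hc : topS Indep S < V e
    · rw [if_pos hc]; exact le_add_self
    · rw [if_neg hc, add_zero]
      have h1 := dyadic_le (topS Indep S) (V e) (not_lt.mp hc) L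
      rw [Finset.sum_range] at h1
      exact h1
  have hcard : (I.card : ℝ≥0) * (topS Indep S / 2 ^ L) ≤ topS Indep S := by
    have h1 : (I.card : ℝ≥0) ≤ 2 ^ L := by exact_mod_cast hL I hI'
    calc (I.card : ℝ≥0) * (topS Indep S / 2 ^ L) ≤ 2 ^ L * (topS Indep S / 2 ^ L) := by gcongr
      _ = topS Indep S := by field_simp
  have hmid : ∀ j : Fin L, ∑ e ∈ I, (if thr Indep S j ≤ V e then thr Indep S j else 0) ≤
      thr Indep S j * rkB Indep (elig Indep j S V) := by
    intro j
    rw [← Finset.sum_filter, Finset.sum_const, nsmul_eq_mul, mul_comm]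
    have h1 : (I.filter (fun e => thr Indep S j ≤ V e)).card ≤ rkB Indep (elig Indep j S V) := by
      unfold rkB
      refine Finset.le_sup (f := Finset.card) (Finset.mem_filter.mpr ⟨Finset.mem_univ _, ?_, ?_⟩)
      · exact h.hered _ _ hI' (Finset.filter_subset _ _)
      · intro e he
        simpa [elig] using (Finset.mem_filter.mp he).2
    gcongr
  calc val V I = ∑ e ∈ I, V e := rfl
    _ ≤ ∑ e ∈ I, (topS Indep S / 2 ^ L +
      ∑ j : Fin L, (if thr Indep S j ≤ V e then thr Indep S j else 0) +
      (if topS Indep S < V e then V e else 0)) := Finset.sum_le_sum hpt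
    _ = (I.card : ℝ≥0) * (topS Indep S / 2 ^ L) +
        ∑ j : Fin L, ∑ e ∈ I, (if thr Indep S j ≤ V e then thr Indep S j else 0) +
        ∑ e ∈ I, (if topS Indep S < V e then V e else 0) := by
      rw [Finset.sum_add_distrib, Finset.sum_add_distrib, Finset.sum_const, nsmul_eq_mul,
        Finset.sum_comm]
    _ ≤ _ := by
      refine add_le_add (add_le_add hcard (Finset.sum_le_sum fun j _ => hmid j)) ?_
      exact Finset.sum_le_sum_of_subset hsub

/-- T4b: `sym_ineq` with `F = above`, `G = 2⁻¹ * topS`, and `coin_above` with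
`a e b = if b then x.1.1 e else x.1.2 e`, `N = nl Indep`. -/
theorem lintegral_above_le (Indep : Finset E → Prop) (D : E → Measure ℝ≥0)
    [∀ e, IsProbabilityMeasure (D e)] :
    ∫⁻ x, (above Indep x : ℝ≥0∞) ∂(law D) ≤ ∫⁻ x, (topS Indep x.1.1 : ℝ≥0∞) ∂(law D) := by
  have hmT : Measurable (fun x : St E => (topS Indep x.1.1 : ℝ≥0∞)) :=
    measurable_coe_nnreal_ennreal.comp
      ((measurable_topS Indep).comp (measurable_fst.comp measurable_fst))
  have h2 : (2 : ℝ≥0∞) * 2⁻¹ = 1 := ENNReal.mul_inv_cancel two_ne_zero ENNReal.ofNat_ne_top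
  have key := sym_ineq D (fun x => (above Indep x : ℝ≥0∞))
    (fun x => 2⁻¹ * (topS Indep x.1.1 : ℝ≥0∞)) (measurable_above Indep)
    (hmT.const_mul _) (by
      intro x
      have h1 := coin_above (fun e b => if b then x.1.1 e else x.1.2 e) (nl Indep)
      have e1 : ∀ c : E → Bool, above Indep (swp c x) = ∑ i ∈ nl Indep,
          (if (nl Indep).sup (fun j => if (!c j) = true then x.1.1 j else x.1.2 j) <
            (if c i = true then x.1.1 i else x.1.2 i) then
            (if c i = true then x.1.1 i else x.1.2 i) else 0) := by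
        intro c
        have e0 : (swp c x).1.1 = fun j => if (!c j) = true then x.1.1 j else x.1.2 j := by
          funext j
          cases hc : c j <;> simp [swp, hc]
        unfold above topS
        rw [e0]
        rfl
      have e2 : ∀ c : E → Bool, topS Indep (swp c x).1.1 =
          (nl Indep).sup (fun j => if (!c j) = true then x.1.1 j else x.1.2 j) := by
        intro c
        have e0 : (swp c x).1.1 = fun j => if (!c j) = true then x.1.1 j else x.1.2 j := by
          funext j
          cases hc : c j <;> simp [swp, hc]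
        unfold topS
        rw [e0]
      simp only [e1, e2]
      rw [← Finset.mul_sum, ← mul_assoc, h2, one_mul]
      exact_mod_cast h1)
  rw [lintegral_const_mul _ hmT, ← mul_assoc, h2, one_mul] at key
  exact key

/-- T4c: `measurePreserving_swp D (fun _ => true)` exchanges sample and values, then
`sup_le_two_gain D (g1 Indep)` (the sum over `k : Unit` has one term). -/
theorem lintegral_topS_le (Indep : Finset E → Prop) (D : E → Measure ℝ≥0)
    [∀ e, IsProbabilityMeasure (D e)] :
    ∫⁻ x, (topS Indep x.1.1 : ℝ≥0∞) ∂(law D) ≤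
      2 * ∫⁻ x, (gain (g1 Indep) x : ℝ≥0∞) ∂(law D) := by
  have hmT : Measurable (fun x : St E => (topS Indep x.1.1 : ℝ≥0∞)) :=
    measurable_coe_nnreal_ennreal.comp
      ((measurable_topS Indep).comp (measurable_fst.comp measurable_fst))
  have h1 := (measurePreserving_swp D (fun _ => true)).lintegral_comp hmT
  rw [← h1]
  refine le_trans (le_of_eq ?_) (sup_le_two_gain D (g1 Indep))
  refine lintegral_congr fun x => ?_
  simp [swp, topS, nl]

/-- T8: assembly.  `∫⁻ opt ∂pi D = ∫⁻ opt x.1.2 ∂law` (`lintegral_law_values`, `measurable_opt`)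
`≤ ∫⁻ topS + ∑ j, ∫⁻ HL (j+1) + ∫⁻ above` (T3) `≤ 4 * ∫⁻ HL 0 + ∑ j, ∫⁻ HL (j+1)` (T4b, T4c)
`= (L + 4) * ∑ ω, pL ω * ∫⁻ HL ω` (`Fin.sum_univ_succ`)
`= (L + 4) * ∫⁻ HL x.2.1 (x.1, x.2.2)` (`lintegral_seed`) `≤ (L + 4) * RHS` (T7b). -/
theorem logRule_competitive {Indep : Finset E → Prop} (h : IsMatroid Indep) (L : ℕ)
    (hL : ∀ I, Indep I → I.card ≤ 2 ^ L) :
    Competitive Indep (seedM E (pL L)) (logRule Indep L) ((L : ℝ≥0) + 4)⁻¹ := by
  intro D hD π hπ
  have hR : ∑ ω, (pL L ω : ℝ≥0∞) * ∫⁻ y, HL Indep L ω y ∂(law D) ≤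
      ∫⁻ x : ((E → ℝ≥0) × (E → ℝ≥0)) × (Fin (L + 1) × (E → Bool)),
          (val x.1.2 ((logRule Indep L).accepted x.1.1 x.2 x.1.2 (π x.1.1 x.1.2 x.2)) : ℝ≥0∞)
          ∂(((Measure.pi D).prod (Measure.pi D)).prod (seedM E (pL L))) := by
    rw [← lintegral_seed D (pL L) (HL Indep L) (measurable_HL Indep L)]
    refine lintegral_mono (fun x => ?_)
    exact HL_le_accepted h L x.1.1 x.1.2 x.2 _ (hπ _ _ _)
  refine le_trans ?_ hR
  have mT : Measurable (fun x : St E => (topS Indep x.1.1 : ℝ≥0∞)) :=
    measurable_coe_nnreal_ennreal.comp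
      ((measurable_topS Indep).comp (measurable_fst.comp measurable_fst))
  have hA : ∫⁻ V, (opt Indep V : ℝ≥0∞) ∂(Measure.pi D) ≤
      4 * ∫⁻ y, HL Indep L 0 y ∂(law D) + ∑ j : Fin L, ∫⁻ y, HL Indep L j.succ y ∂(law D) := by
    rw [← lintegral_law_values D _ (measurable_opt Indep)]
    have h1 : ∫⁻ x, (opt Indep x.1.2 : ℝ≥0∞) ∂(law D) ≤
        ∫⁻ x, ((topS Indep x.1.1 : ℝ≥0∞) + ∑ j : Fin L, HL Indep L j.succ x +
          (above Indep x : ℝ≥0∞)) ∂(law D) := by
      refine lintegral_mono (fun x => ?_)
      have h2 := ENNReal.coe_le_coe.2 (opt_le_pointwise h L hL x)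
      simp only [ENNReal.coe_add, ENNReal.ofNNReal_finsetSum] at h2
      exact h2
    refine h1.trans ?_
    rw [lintegral_add_right _ (measurable_above Indep), lintegral_add_left mT,
      lintegral_finsetSum _ (fun j _ => measurable_HL Indep L j.succ)]
    have h3 := lintegral_above_le Indep D
    have h4 : ∫⁻ x, (topS Indep x.1.1 : ℝ≥0∞) ∂(law D) ≤ 2 * ∫⁻ y, HL Indep L 0 y ∂(law D) :=
      lintegral_topS_le Indep D
    calc ∫⁻ x, (topS Indep x.1.1 : ℝ≥0∞) ∂(law D) + ∑ j : Fin L, ∫⁻ y, HL Indep L j.succ y ∂(law D)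
          + ∫⁻ x, (above Indep x : ℝ≥0∞) ∂(law D)
        ≤ 2 * ∫⁻ y, HL Indep L 0 y ∂(law D) + ∑ j : Fin L, ∫⁻ y, HL Indep L j.succ y ∂(law D)
          + 2 * ∫⁻ y, HL Indep L 0 y ∂(law D) := by
          gcongr
          exact h3.trans h4
      _ = 4 * ∫⁻ y, HL Indep L 0 y ∂(law D) + ∑ j : Fin L, ∫⁻ y, HL Indep L j.succ y ∂(law D) := by
          ring
  have hS : ∑ ω, (pL L ω : ℝ≥0∞) * ∫⁻ y, HL Indep L ω y ∂(law D) =
      ((((L : ℝ≥0) + 4)⁻¹ : ℝ≥0) : ℝ≥0∞) * (4 * ∫⁻ y, HL Indep L 0 y ∂(law D) +
        ∑ j : Fin L, ∫⁻ y, HL Indep L j.succ y ∂(law D)) := by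
    rw [Fin.sum_univ_succ]
    have p0 : pL L 0 = ((L : ℝ≥0) + 4)⁻¹ * 4 := by
      show 4 / ((L : ℝ≥0) + 4) = _
      rw [div_eq_mul_inv, mul_comm]
    have ps : ∀ j : Fin L, pL L j.succ = ((L : ℝ≥0) + 4)⁻¹ := by
      intro j
      show 1 / ((L : ℝ≥0) + 4) = _
      rw [one_div]
    simp only [p0, ps]
    rw [ENNReal.coe_mul, mul_add, Finset.mul_sum, ENNReal.coe_ofNat, mul_assoc]
  rw [hS]
  gcongr

theorem hasRule_of_isMatroid {Indep : Finset E → Prop} (h : IsMatroid Indep) (L : ℕ)
    (hL : ∀ I, Indep I → I.card ≤ 2 ^ L) : HasRule Indep ((L : ℝ≥0) + 4)⁻¹ :=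
  ⟨Fin (L + 1) × (E → Bool), inferInstance, seedM E (pL L), seedM_prob (pL L) (sum_pL L),
    logRule Indep L, logRule_feasible h L, logRule_competitive h L hL⟩

/-- T9a: Mathlib matroids (`Matroid.Indep.augment_finset`, `Matroid.Indep.subset`) -/
theorem isMatroid_of_matroid (M : Matroid E) :
    IsMatroid (fun I : Finset E => M.Indep (I : Set E)) := by
  refine ⟨by simp, ?_, ?_⟩
  · intro I J hJ hIJ
    exact Matroid.Indep.subset hJ (by exact_mod_cast hIJ)
  · intro I J hI hJ hcard
    obtain ⟨e, he, heI, hins⟩ := Matroid.Indep.augment_finset hI hJ hcard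
    exact ⟨e, he, heI, by simpa using hins⟩

/-- T9b (`Matroid.Indep.encard_le_eRank`) -/
theorem card_le_of_eRank_le (M : Matroid E) (L : ℕ) (hL : M.eRank ≤ 2 ^ L) (I : Finset E)
    (hI : M.Indep (I : Set E)) : I.card ≤ 2 ^ L := by
  have h1 := hI.encard_le_eRank.trans hL
  rw [Set.encard_coe_eq_coe_finsetCard] at h1
  exact_mod_cast h1

/-- every finite matroid of rank at most `2 ^ L` -/
theorem hasRule_of_matroid (M : Matroid E) (L : ℕ) (hL : M.eRank ≤ 2 ^ L) :
    HasRule (fun I : Finset E => M.Indep (I : Set E)) ((L : ℝ≥0) + 4)⁻¹ :=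
  hasRule_of_isMatroid (isMatroid_of_matroid M) L (card_le_of_eRank_le M L hL)

end Vale.Agent.Lib.P331
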