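import Vale.Agent.Lib.P331.RuleDef

/-!
# P331 unit M: from the partition property to a one-sample rule against the almighty adversary
-/

open MeasureTheory
open scoped NNReal ENNReal

namespace Vale.Agent.Lib.P331

variable {E : Type} [Fintype E] [DecidableEq E]
variable {κ : Type} [Fintype κ] [DecidableEq κ]
variable {Ω₀ : Type} [Fintype Ω₀] [MeasurableSpace Ω₀] [DiscreteMeasurableSpace Ω₀]

/-- the law of the seed: `ω` with probability `p ω`, and independent fair bits -/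
noncomputable def seedM (E : Type) [Fintype E] (p : Ω₀ → ℝ≥0) : Measure (Ω₀ × (E → Bool)) :=
  (∑ ω, (p ω : ℝ≥0∞) • Measure.dirac ω).prod (Measure.pi (fun _ : E => coinM))

/-- M0 -/
theorem seedM_prob (p : Ω₀ → ℝ≥0) (hp : ∑ ω, p ω = 1) : IsProbabilityMeasure (seedM E p) := by
  have h1 : IsProbabilityMeasure (∑ ω, (p ω : ℝ≥0∞) • Measure.dirac ω : Measure Ω₀) := by
    constructor
    rw [Measure.finsetSum_apply]
    simp only [Measure.smul_apply, measure_univ, smul_eq_mul, mul_one]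
    rw [← ENNReal.ofNNReal_finsetSum, hp, ENNReal.coe_one]
  unfold seedM
  infer_instance

/-- M1 (Fubini; all measures are finite) -/
theorem lintegral_seed (D : E → Measure ℝ≥0) [∀ e, IsProbabilityMeasure (D e)] (p : Ω₀ → ℝ≥0)
    (H : Ω₀ → St E → ℝ≥0∞) (hH : ∀ ω, Measurable (H ω)) :
    ∫⁻ x : ((E → ℝ≥0) × (E → ℝ≥0)) × (Ω₀ × (E → Bool)), H x.2.1 (x.1, x.2.2)
        ∂(((Measure.pi D).prod (Measure.pi D)).prod (seedM E p)) =
      ∑ ω, (p ω : ℝ≥0∞) * ∫⁻ y, H ω y ∂(law D) := by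
  classical
  have hfin : IsFiniteMeasure (∑ ω, (p ω : ℝ≥0∞) • Measure.dirac ω : Measure Ω₀) := by
    constructor
    rw [Measure.finsetSum_apply]
    simp only [Measure.smul_apply, measure_univ, smul_eq_mul, mul_one]
    rw [← ENNReal.ofNNReal_finsetSum]
    exact ENNReal.coe_lt_top
  have hmeas : Measurable (fun x : ((E → ℝ≥0) × (E → ℝ≥0)) × (Ω₀ × (E → Bool)) =>
      H x.2.1 (x.1, x.2.2)) := by
    have : (fun x : ((E → ℝ≥0) × (E → ℝ≥0)) × (Ω₀ × (E → Bool)) => H x.2.1 (x.1, x.2.2)) =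
        fun x => ∑ ω : Ω₀, (if x.2.1 = ω then H ω (x.1, x.2.2) else 0) := by
      funext x
      simp
    rw [this]
    refine Finset.measurable_sum _ (fun ω _ => ?_)
    refine Measurable.ite ?_ ((hH ω).comp (by fun_prop)) measurable_const
    exact (measurable_fst.comp measurable_snd) (measurableSet_singleton ω)
  unfold seedM law
  rw [lintegral_prod _ hmeas.aemeasurable]
  have hinner : ∀ x : (E → ℝ≥0) × (E → ℝ≥0),
      ∫⁻ y : Ω₀ × (E → Bool), H y.1 (x, y.2)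
        ∂((∑ ω, (p ω : ℝ≥0∞) • Measure.dirac ω : Measure Ω₀).prod
          (Measure.pi (fun _ : E => coinM))) =
      ∑ ω, (p ω : ℝ≥0∞) * ∫⁻ b, H ω (x, b) ∂(Measure.pi (fun _ : E => coinM)) := by
    intro x
    have hm2 : Measurable (fun y : Ω₀ × (E → Bool) => H y.1 (x, y.2)) :=
      hmeas.comp (measurable_prodMk_left (x := x))
    rw [lintegral_prod _ hm2.aemeasurable]
    rw [lintegral_finsetSum_measure]
    refine Finset.sum_congr rfl (fun ω _ => ?_)
    rw [lintegral_smul_measure, lintegral_dirac, smul_eq_mul]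
  simp only [hinner]
  rw [lintegral_finsetSum]
  · refine Finset.sum_congr rfl (fun ω _ => ?_)
    rw [lintegral_const_mul, lintegral_prod _ (hH ω).aemeasurable]
    exact (hH ω).lintegral_prod_right'
  · intro ω _
    exact ((hH ω).lintegral_prod_right').const_mul _

theorem measurable_finset_sup_apply (s : Finset E) :
    Measurable (fun V : E → ℝ≥0 => s.sup V) := by
  induction s using Finset.induction_on with
  | empty => simp
  | insert a s ha ih =>
    simp only [Finset.sup_insert]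
    exact (measurable_pi_apply a).sup ih

theorem measurable_sum_sup_aux (g : E → Option κ) :
    Measurable (fun V : E → ℝ≥0 => ((∑ k, (cell g k).sup V : ℝ≥0) : ℝ≥0∞)) := by
  refine measurable_coe_nnreal_ennreal.comp ?_
  exact Finset.measurable_fun_sum _ fun k _ => measurable_finset_sup_apply _

theorem swp_val (c : E → Bool) (x : St E) (e : E) :
    (swp c x).1.2 e = wTok (tk x e (c e)) := by
  cases h : c e <;> simp [swp, wTok, tk, tokS, tokV, h]

/-- M2: `sym_ineq` with `F x = ∑ k, (cell g k).sup x.1.2`, `G = gain g`; the pointwise hypothesis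
is `core wTok wTok_mono (tk x) (tk_injective x) (cell g k)` summed over `k`, using `gain_swp` and
`(swp c x).1.2 e = wTok (tk x e (c e))`. -/
theorem sup_le_two_gain (D : E → Measure ℝ≥0) [∀ e, IsProbabilityMeasure (D e)]
    (g : E → Option κ) :
    ∫⁻ x, ((∑ k, (cell g k).sup x.1.2 : ℝ≥0) : ℝ≥0∞) ∂(law D) ≤
      2 * ∫⁻ x, (gain g x : ℝ≥0∞) ∂(law D) := by
  refine sym_ineq D (fun x => ((∑ k, (cell g k).sup x.1.2 : ℝ≥0) : ℝ≥0∞))
    (fun x => (gain g x : ℝ≥0∞)) ?_ (measurable_gain g) ?_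
  · exact (measurable_sum_sup_aux g).comp (measurable_snd.comp measurable_fst)
  · intro x
    have h1 : ∀ k, ∑ c : E → Bool, (cell g k).sup (fun i => wTok (tk x i (c i))) ≤
        2 * ∑ c : E → Bool, algW wTok (tk x) (cell g k) c := fun k =>
      core wTok wTok_mono (tk x) (tk_injective x) (cell g k)
    have h2 : ∑ c : E → Bool, (∑ k, (cell g k).sup (swp c x).1.2 : ℝ≥0) ≤
        2 * ∑ c : E → Bool, gain g (swp c x) := by
      have e1 : ∀ c : E → Bool, (∑ k, (cell g k).sup (swp c x).1.2 : ℝ≥0) =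
          ∑ k, (cell g k).sup (fun i => wTok (tk x i (c i))) := by
        intro c
        refine Finset.sum_congr rfl fun k _ => ?_
        congr 1
        funext e
        exact swp_val c x e
      simp only [e1, gain_swp]
      rw [Finset.sum_comm, Finset.sum_comm (f := fun c k => algW wTok (tk x) (cell g k) c),
        Finset.mul_sum]
      exact Finset.sum_le_sum fun k _ => h1 k
    have h3 := ENNReal.coe_le_coe.2 h2
    rw [ENNReal.coe_mul, ENNReal.ofNNReal_finsetSum, ENNReal.ofNNReal_finsetSum] at h3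
    exact h3

/-- M3: marginal of the values -/
theorem lintegral_law_values (D : E → Measure ℝ≥0) [∀ e, IsProbabilityMeasure (D e)]
    (F : (E → ℝ≥0) → ℝ≥0∞) (hF : Measurable F) :
    ∫⁻ x, F x.1.2 ∂(law D) = ∫⁻ V, F V ∂(Measure.pi D) := by
  unfold law
  rw [lintegral_prod _ (by fun_prop)]
  simp only [lintegral_const, measure_univ, mul_one]
  rw [lintegral_prod _ (by fun_prop)]
  simp only [lintegral_const, measure_univ, mul_one]

/-- M3b -/
theorem measurable_sum_sup (g : E → Option κ) :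
    Measurable (fun V : E → ℝ≥0 => ((∑ k, (cell g k).sup V : ℝ≥0) : ℝ≥0∞)) := by
  refine measurable_coe_nnreal_ennreal.comp ?_
  refine Finset.measurable_sum _ (fun k _ => ?_)
  show Measurable (fun V : E → ℝ≥0 => (cell g k).sup V)
  induction (cell g k) using Finset.induction_on with
  | empty => simp only [Finset.sup_empty]; exact measurable_const
  | insert a s _ ih =>
    simp only [Finset.sup_insert]
    exact (measurable_pi_apply a).sup ih

/-- M4a: feasibility (from `accepted_labels`) -/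
theorem classRule_feasible {Indep : Finset E → Prop} {α : ℝ≥0} {p : Ω₀ → ℝ≥0}
    {cls : Ω₀ → E → Option κ} (h : PartitionProperty Indep α Ω₀ κ p cls) :
    Feasible Indep (classRule cls) := by
  intro S ω v l hl
  obtain ⟨h1, h2⟩ := accepted_labels cls S v ω l hl
  exact h.indep ω.1 _ h1 h2

/-- M4b: competitiveness.  `RHS ≥ ∫⁻ gain (cls x.2.1) (x.1, x.2.2)` (`lintegral_mono`,
`gain_le_accepted`) `= ∑ ω, p ω * ∫⁻ gain (cls ω) ∂law` (M1, `measurable_gain`)
`≥ 2⁻¹ * ∑ ω, p ω * ∫⁻ ∑ k sup ∂law` (M2) `= 2⁻¹ * ∫⁻ V, ∑ ω, p ω * ∑ k sup ∂pi D` (M3, M3b)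
`≥ 2⁻¹ * α⁻¹ * ∫⁻ opt` (`h.approx`). -/
theorem classRule_competitive {Indep : Finset E → Prop} {α : ℝ≥0} (hα : 0 < α) {p : Ω₀ → ℝ≥0}
    {cls : Ω₀ → E → Option κ} (h : PartitionProperty Indep α Ω₀ κ p cls) :
    Competitive Indep (seedM E p) (classRule cls) (2 * α)⁻¹ := by
  intro D hD π hπ
  -- step 1: RHS ≥ ∫ gain
  have s1 : ∫⁻ x : ((E → ℝ≥0) × (E → ℝ≥0)) × (Ω₀ × (E → Bool)),
        (gain (cls x.2.1) (x.1, x.2.2) : ℝ≥0∞)
        ∂(((Measure.pi D).prod (Measure.pi D)).prod (seedM E p)) ≤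
      ∫⁻ x : ((E → ℝ≥0) × (E → ℝ≥0)) × (Ω₀ × (E → Bool)),
          (val x.1.2 ((classRule cls).accepted x.1.1 x.2 x.1.2 (π x.1.1 x.1.2 x.2)) : ℝ≥0∞)
          ∂(((Measure.pi D).prod (Measure.pi D)).prod (seedM E p)) := by
    refine lintegral_mono fun x => ?_
    exact ENNReal.coe_le_coe.2
      (gain_le_accepted cls x.1.1 x.1.2 x.2 (π x.1.1 x.1.2 x.2) (hπ _ _ _))
  refine le_trans ?_ s1
  rw [lintegral_seed D p (fun ω y => (gain (cls ω) y : ℝ≥0∞)) (fun ω => measurable_gain (cls ω))]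
  -- step 2: opt ≤ α * ∑ ...
  have s2 : ∫⁻ V, (opt Indep V : ℝ≥0∞) ∂(Measure.pi D) ≤
      (α : ℝ≥0∞) * ∑ ω, (p ω : ℝ≥0∞) *
        ∫⁻ V, ((∑ k, (cell (cls ω) k).sup V : ℝ≥0) : ℝ≥0∞) ∂(Measure.pi D) := by
    calc ∫⁻ V, (opt Indep V : ℝ≥0∞) ∂(Measure.pi D)
        ≤ ∫⁻ V, (α : ℝ≥0∞) * ∑ ω, (p ω : ℝ≥0∞) *
            ((∑ k, (cell (cls ω) k).sup V : ℝ≥0) : ℝ≥0∞) ∂(Measure.pi D) := by
          refine lintegral_mono fun V => ?_
          have := ENNReal.coe_le_coe.2 (h.approx V)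
          rw [ENNReal.coe_mul, ENNReal.ofNNReal_finsetSum] at this
          simpa only [ENNReal.coe_mul] using this
      _ = (α : ℝ≥0∞) * ∑ ω, (p ω : ℝ≥0∞) *
            ∫⁻ V, ((∑ k, (cell (cls ω) k).sup V : ℝ≥0) : ℝ≥0∞) ∂(Measure.pi D) := by
          rw [lintegral_const_mul]
          · rw [lintegral_finsetSum]
            · congr 1
              refine Finset.sum_congr rfl fun ω _ => ?_
              rw [lintegral_const_mul _ (measurable_sum_sup (cls ω))]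
            · intro ω _
              exact (measurable_sum_sup (cls ω)).const_mul _
          · exact Finset.measurable_fun_sum _ fun ω _ => (measurable_sum_sup (cls ω)).const_mul _
  have s3 : ∀ ω, ∫⁻ V, ((∑ k, (cell (cls ω) k).sup V : ℝ≥0) : ℝ≥0∞) ∂(Measure.pi D) ≤
      2 * ∫⁻ y, (gain (cls ω) y : ℝ≥0∞) ∂(law D) := by
    intro ω
    rw [← lintegral_law_values D _ (measurable_sum_sup (cls ω))]
    exact sup_le_two_gain D (cls ω)
  have s4 : ∫⁻ V, (opt Indep V : ℝ≥0∞) ∂(Measure.pi D) ≤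
      ((2 * α : ℝ≥0) : ℝ≥0∞) * ∑ ω, (p ω : ℝ≥0∞) * ∫⁻ y, (gain (cls ω) y : ℝ≥0∞) ∂(law D) := by
    refine s2.trans ?_
    have : ∑ ω, (p ω : ℝ≥0∞) *
        ∫⁻ V, ((∑ k, (cell (cls ω) k).sup V : ℝ≥0) : ℝ≥0∞) ∂(Measure.pi D) ≤
        2 * ∑ ω, (p ω : ℝ≥0∞) * ∫⁻ y, (gain (cls ω) y : ℝ≥0∞) ∂(law D) := by
      rw [Finset.mul_sum]
      refine Finset.sum_le_sum fun ω _ => ?_
      calc (p ω : ℝ≥0∞) * ∫⁻ V, ((∑ k, (cell (cls ω) k).sup V : ℝ≥0) : ℝ≥0∞) ∂(Measure.pi D)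
          ≤ (p ω : ℝ≥0∞) * (2 * ∫⁻ y, (gain (cls ω) y : ℝ≥0∞) ∂(law D)) :=
            mul_le_mul_right (s3 ω) _
        _ = 2 * ((p ω : ℝ≥0∞) * ∫⁻ y, (gain (cls ω) y : ℝ≥0∞) ∂(law D)) := by ring
    calc (α : ℝ≥0∞) * ∑ ω, (p ω : ℝ≥0∞) *
          ∫⁻ V, ((∑ k, (cell (cls ω) k).sup V : ℝ≥0) : ℝ≥0∞) ∂(Measure.pi D)
        ≤ (α : ℝ≥0∞) * (2 * ∑ ω, (p ω : ℝ≥0∞) * ∫⁻ y, (gain (cls ω) y : ℝ≥0∞) ∂(law D)) :=
          mul_le_mul_right this _
      _ = _ := by
          rw [ENNReal.coe_mul, ENNReal.coe_ofNat]; ring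
  have h2α : (2 * α : ℝ≥0) ≠ 0 := by positivity
  calc (((2 * α)⁻¹ : ℝ≥0) : ℝ≥0∞) * ∫⁻ V, (opt Indep V : ℝ≥0∞) ∂(Measure.pi D)
      ≤ (((2 * α)⁻¹ : ℝ≥0) : ℝ≥0∞) * (((2 * α : ℝ≥0) : ℝ≥0∞) *
          ∑ ω, (p ω : ℝ≥0∞) * ∫⁻ y, (gain (cls ω) y : ℝ≥0∞) ∂(law D)) :=
        mul_le_mul_right s4 _
    _ = ∑ ω, (p ω : ℝ≥0∞) * ∫⁻ y, (gain (cls ω) y : ℝ≥0∞) ∂(law D) := by
        rw [← mul_assoc, ← ENNReal.coe_mul, inv_mul_cancel₀ h2α, ENNReal.coe_one, one_mul]

/-- the general theorem -/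
theorem hasRule_of_partition {Indep : Finset E → Prop} {α : ℝ≥0} (hα : 0 < α) {p : Ω₀ → ℝ≥0}
    {cls : Ω₀ → E → Option κ} (h : PartitionProperty Indep α Ω₀ κ p cls) :
    HasRule Indep (2 * α)⁻¹ :=
  ⟨Ω₀ × (E → Bool), inferInstance, seedM E p, seedM_prob p h.sum_p, classRule cls,
    classRule_feasible h, classRule_competitive hα h⟩

end Vale.Agent.Lib.P331
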