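import Vale.Agent.Lib.P331.Defs

/-!
# P331 unit S: symmetrisation (exchange of sample and value, coordinate by coordinate)
-/

open MeasureTheory
open scoped NNReal ENNReal

namespace Vale.Agent.Lib.P331

variable {E : Type} [Fintype E] [DecidableEq E]

/-- the fair coin -/
noncomputable def coinM : Measure Bool :=
  (2⁻¹ : ℝ≥0∞) • Measure.dirac true + (2⁻¹ : ℝ≥0∞) • Measure.dirac false

instance : IsProbabilityMeasure coinM := by
  constructor
  simp [coinM, ENNReal.inv_two_add_inv_two]

/-- sample, values, tie-breaking bits -/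
abbrev St (E : Type) := ((E → ℝ≥0) × (E → ℝ≥0)) × (E → Bool)

/-- the law of (sample, values, bits) -/
noncomputable def law (D : E → Measure ℝ≥0) : Measure (St E) :=
  ((Measure.pi D).prod (Measure.pi D)).prod (Measure.pi (fun _ : E => coinM))

/-- exchange sample and value (and flip the bit) at the coordinates `e` with `c e = true` -/
def swp (c : E → Bool) (x : St E) : St E :=
  ((fun e => if c e then x.1.2 e else x.1.1 e, fun e => if c e then x.1.1 e else x.1.2 e),
    fun e => if c e then !x.2 e else x.2 e)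

theorem swp_swp (c : E → Bool) (x : St E) : swp c (swp c x) = x := by
  rcases x with ⟨⟨S, V⟩, b⟩
  simp only [swp]
  refine Prod.ext (Prod.ext ?_ ?_) ?_ <;> funext e <;> by_cases h : c e <;> simp [h]

theorem measurable_swp (c : E → Bool) : Measurable (swp (E := E) c) := by
  unfold swp
  refine Measurable.prodMk (Measurable.prodMk ?_ ?_) ?_ <;> refine measurable_pi_lambda _ (fun e => ?_) <;>
    by_cases h : c e <;> simp only [h, if_true, if_false, Bool.false_eq_true] <;> fun_prop

theorem measurePreserving_not : MeasurePreserving (fun b : Bool => !b) coinM coinM := by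
  have hm : Measurable (fun b : Bool => !b) := measurable_of_countable _
  refine ⟨hm, ?_⟩
  unfold coinM
  rw [Measure.map_add _ _ hm, Measure.map_smul, Measure.map_smul,
    Measure.map_dirac' hm, Measure.map_dirac' hm]
  simp [add_comm]

theorem measurePreserving_swp (D : E → Measure ℝ≥0) [∀ e, IsProbabilityMeasure (D e)]
    (c : E → Bool) : MeasurePreserving (swp c) (law D) (law D) := by
  set P : Measure (E → (ℝ≥0 × ℝ≥0) × Bool) :=
    Measure.pi (fun e => ((D e).prod (D e)).prod coinM) with hP
  have h1 := measurePreserving_arrowProdEquivProdArrow (ℝ≥0 × ℝ≥0) Bool E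
    (fun e => (D e).prod (D e)) (fun _ => coinM)
  have h2 := measurePreserving_arrowProdEquivProdArrow ℝ≥0 ℝ≥0 E D D
  have h3 := (h2.prod (MeasurePreserving.id (Measure.pi (fun _ : E => coinM)))).comp h1
  set Φ : (E → (ℝ≥0 × ℝ≥0) × Bool) → St E :=
    (Prod.map (MeasurableEquiv.arrowProdEquivProdArrow ℝ≥0 ℝ≥0 E) id) ∘
      (MeasurableEquiv.arrowProdEquivProdArrow (ℝ≥0 × ℝ≥0) Bool E) with hΦdef
  have hΦ : MeasurePreserving Φ P (law D) := h3
  let loc : E → (ℝ≥0 × ℝ≥0) × Bool → (ℝ≥0 × ℝ≥0) × Bool :=
    fun e => if c e then Prod.map Prod.swap (fun b : Bool => !b) else id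
  have hloc : ∀ e, MeasurePreserving (loc e) (((D e).prod (D e)).prod coinM)
      (((D e).prod (D e)).prod coinM) := by
    intro e
    by_cases h : c e
    · simp only [loc, h, if_true]
      exact (Measure.measurePreserving_swap).prod measurePreserving_not
    · simp only [loc, h, if_false, Bool.false_eq_true]
      exact MeasurePreserving.id _
  have hL := measurePreserving_pi _ _ hloc
  have hcomm : swp c ∘ Φ = Φ ∘ (fun a e => loc e (a e)) := by
    funext a
    simp only [Function.comp, swp, hΦdef, loc]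
    refine Prod.ext (Prod.ext ?_ ?_) ?_ <;> funext e <;> by_cases h : c e <;>
      simp [h, MeasurableEquiv.arrowProdEquivProdArrow, Equiv.arrowProdEquivProdArrow]
  refine ⟨measurable_swp c, ?_⟩
  rw [← hΦ.map_eq, Measure.map_map (measurable_swp c) hΦ.measurable, hcomm,
    ← Measure.map_map hΦ.measurable hL.measurable, hL.map_eq]

theorem sym_ineq (D : E → Measure ℝ≥0) [∀ e, IsProbabilityMeasure (D e)]
    (F G : St E → ℝ≥0∞) (hF : Measurable F) (hG : Measurable G)
    (h : ∀ x, ∑ c : E → Bool, F (swp c x) ≤ 2 * ∑ c : E → Bool, G (swp c x)) :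
    ∫⁻ x, F x ∂(law D) ≤ 2 * ∫⁻ x, G x ∂(law D) := by
  have key : ∀ H : St E → ℝ≥0∞, Measurable H →
      ∫⁻ x, ∑ c : E → Bool, H (swp c x) ∂(law D)
        = (Fintype.card (E → Bool) : ℝ≥0∞) * ∫⁻ x, H x ∂(law D) := by
    intro H hH
    have hmH : ∀ c : E → Bool, Measurable (fun x => H (swp c x)) :=
      fun c => hH.comp (measurable_swp c)
    rw [lintegral_finsetSum _ (fun c _ => hmH c)]
    have : ∀ c : E → Bool, ∫⁻ x, H (swp c x) ∂(law D) = ∫⁻ x, H x ∂(law D) :=
      fun c => (measurePreserving_swp D c).lintegral_comp hH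
    simp [this]
  have h1 : ∫⁻ x, ∑ c : E → Bool, F (swp c x) ∂(law D)
      ≤ ∫⁻ x, 2 * ∑ c : E → Bool, G (swp c x) ∂(law D) := lintegral_mono h
  have hmG : ∀ c : E → Bool, Measurable (fun x => G (swp c x)) :=
    fun c => hG.comp (measurable_swp c)
  rw [key F hF, lintegral_const_mul _ (Finset.measurable_sum _ (fun c _ => hmG c)), key G hG, ← mul_assoc, mul_comm 2, mul_assoc] at h1
  have hc0 : (Fintype.card (E → Bool) : ℝ≥0∞) ≠ 0 := by
    exact_mod_cast Fintype.card_ne_zero
  exact (ENNReal.mul_le_mul_iff_right hc0 (ENNReal.natCast_ne_top _)).1 h1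

end Vale.Agent.Lib.P331
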