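import Vale.Agent.Lib.P331.Core
import Vale.Agent.Lib.P331.Sym

/-!
# P331 unit R: the rule (in every class: accept the first element whose value token beats all
sample tokens of the class) and its pointwise properties
-/

open MeasureTheory
open scoped NNReal ENNReal

namespace Vale.Agent.Lib.P331

variable {E : Type} [Fintype E] [DecidableEq E]

/-- a fixed numbering of the elements, used to break ties between different elements -/
noncomputable def idx (e : E) : ℕ := (Fintype.equivFin E e : ℕ)

/-- tokens: (value, number of the element, bit), ordered lexicographically -/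
abbrev Tok := ℝ≥0 ×ₗ (ℕ ×ₗ Bool)

/-- value of a token -/
def wTok (τ : Tok) : ℝ≥0 := (ofLex τ).1

/-- value token of `e` -/
noncomputable def tokV (x : St E) (e : E) : Tok := toLex (x.1.2 e, toLex (idx e, x.2 e))

/-- sample token of `e` -/
noncomputable def tokS (x : St E) (e : E) : Tok := toLex (x.1.1 e, toLex (idx e, !x.2 e))

/-- the two tokens of `e` (`false`: value token, `true`: sample token) -/
noncomputable def tk (x : St E) (e : E) (b : Bool) : Tok := if b then tokS x e else tokV x e

theorem wTok_mono : Monotone wTok := by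
  intro a b hab
  rcases (Prod.Lex.le_iff).1 hab with h | h
  · exact h.le
  · exact h.1.le

theorem idx_injective : Function.Injective (idx : E → ℕ) := by
  intro a b h
  exact (Fintype.equivFin E).injective (Fin.ext h)

theorem tk_injective (x : St E) : Function.Injective (fun q : E × Bool => tk x q.1 q.2) := by
  rintro ⟨e, b⟩ ⟨f, c⟩ h
  have h' : tk x e b = tk x f c := h
  have key : ∀ (e : E) (b : Bool),
      (ofLex (ofLex (tk x e b)).2) = (idx e, if b then !x.2 e else x.2 e) := by
    intro e b
    cases b <;> simp [tk, tokS, tokV]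
  have h2 := key e b
  rw [h', key f c] at h2
  have h3 : idx f = idx e := (Prod.ext_iff.1 h2).1
  have h4 : f = e := idx_injective h3
  subst h4
  have h5 := (Prod.ext_iff.1 h2).2
  simp only at h5
  cases b <;> cases c <;> simp_all

theorem tokV_swp (c : E → Bool) (x : St E) (e : E) : tokV (swp c x) e = tk x e (c e) := by
  cases h : c e <;> simp [tokV, tk, swp, h, tokS]

theorem tokS_swp (c : E → Bool) (x : St E) (e : E) : tokS (swp c x) e = tk x e (!c e) := by
  cases h : c e <;> simp [tokV, tk, swp, h, tokS]

theorem tk_swp (c : E → Bool) (x : St E) (e : E) (b : Bool) :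
    tk (swp c x) e b = tk x e (if b then !c e else c e) := by
  cases b
  · simpa [tk] using tokV_swp c x e
  · simpa [tk] using tokS_swp c x e

variable {κ : Type} [Fintype κ] [DecidableEq κ]

/-- `e` wins: its value token beats all sample tokens of its class -/
def win (g : E → Option κ) (x : St E) (e : E) : Prop := ∀ f, g f = g e → tokS x f < tokV x e

/-- the guaranteed gain: in every class the least value of a winner -/
noncomputable def gain (g : E → Option κ) (x : St E) : ℝ≥0 :=
  ∑ k, algW wTok (tk x) (cell g k) (fun _ => false)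

/-- R0 -/
theorem gain_swp (g : E → Option κ) (c : E → Bool) (x : St E) :
    gain g (swp c x) = ∑ k, algW wTok (tk x) (cell g k) c := by
  unfold gain
  refine Finset.sum_congr rfl fun k _ => ?_
  have hgood : good (tk (swp c x)) (cell g k) (fun _ => false) = good (tk x) (cell g k) c := by
    unfold good
    refine Finset.filter_congr fun i _ => ?_
    simp [tk_swp]
  unfold algW
  simp only [hgood]
  simp [tk_swp]

theorem measurable_tok_lt (f e : E) : Measurable (fun x : St E => tokS x f < tokV x e) := by
  have h : (fun x : St E => tokS x f < tokV x e) =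
      fun x : St E => x.1.1 f < x.1.2 e ∨ (x.1.1 f = x.1.2 e ∧
        (toLex (idx f, !x.2 f) : ℕ ×ₗ Bool) < toLex (idx e, x.2 e)) := by
    funext x
    simp only [tokS, tokV, Prod.Lex.toLex_lt_toLex]
  rw [h]
  have m1 : Measurable (fun x : St E => x.1.1 f) := by fun_prop
  have m2 : Measurable (fun x : St E => x.1.2 e) := by fun_prop
  refine Measurable.or (measurableSet_setOfPred.1 (measurableSet_lt m1 m2))
    (Measurable.and (measurableSet_setOfPred.1 (measurableSet_eq_fun m1 m2)) ?_)
  have m3 : Measurable (fun x : St E => (x.2 f, x.2 e)) := by fun_prop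
  exact measurableSet_setOfPred.1 (m3 (MeasurableSet.of_discrete
    (s := {q : Bool × Bool | (toLex (idx f, !q.1) : ℕ ×ₗ Bool) < toLex (idx e, q.2)})))

theorem measurable_win (g : E → Option κ) (e : E) : Measurable (fun x : St E => win g x e) := by
  unfold win
  exact Measurable.forall (fun f => Measurable.imp measurable_const (measurable_tok_lt f e))

theorem measurable_inf'_aux {α : Type} [MeasurableSpace α] (A : Finset E) (hA : A.Nonempty)
    (f : E → α → ℝ≥0) (hf : ∀ i, Measurable (f i)) :
    Measurable (fun x => A.inf' hA (fun i => f i x)) := by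
  induction hA using Finset.Nonempty.cons_induction with
  | singleton a => simpa only [Finset.inf'_singleton] using hf a
  | cons a s h hs ih =>
    simp only [Finset.inf'_cons hs]
    exact (hf a).inf ih

theorem measurable_algW (P : Finset E) :
    Measurable (fun x : St E => algW wTok (tk x) P (fun _ => false)) := by
  classical
  have h : (fun x : St E => algW wTok (tk x) P (fun _ => false)) =
      fun x => ∑ A ∈ P.powerset, if good (tk x) P (fun _ => false) = A then
        (if h : A.Nonempty then A.inf' h (fun i => x.1.2 i) else 0) else 0 := by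
    funext x
    rw [Finset.sum_ite_eq]
    have hm : good (tk x) P (fun _ => false) ∈ P.powerset :=
      Finset.mem_powerset.2 (Finset.filter_subset _ _)
    rw [if_pos hm]
    rfl
  rw [h]
  refine Finset.measurable_sum _ (fun A _ => ?_)
  refine Measurable.ite ?_ ?_ measurable_const
  · have : (fun x : St E => good (tk x) P (fun _ => false) = A) =
        fun x : St E => ∀ i, (i ∈ P ∧ ∀ j, j ∈ P → tokS x j < tokV x i) ↔ i ∈ A := by
      funext x
      simp only [Finset.ext_iff, good, Finset.mem_filter]
      rfl
    refine measurableSet_setOfPred.2 ?_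
    rw [this]
    exact Measurable.forall (fun i => Measurable.iff
      (Measurable.and measurable_const (Measurable.forall (fun j =>
        Measurable.imp measurable_const (measurable_tok_lt j i))))
      measurable_const)
  · by_cases hA : A.Nonempty
    · simp only [dif_pos hA]
      exact measurable_inf'_aux A hA (fun i => fun x : St E => x.1.2 i) (fun i => by fun_prop)
    · simp only [dif_neg hA]
      exact measurable_const

theorem win_congr (g : E → Option κ) (S v v' : E → ℝ≥0) (b : E → Bool) (e : E) (h : v e = v' e) :
    win g ((S, v), b) e ↔ win g ((S, v'), b) e := by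
  simp only [win, tokS, tokV, h]

/-- R4 (write `algW` as a finite sum over the possible sets of winners; the sets
`{x | tokS x f < tokV x e}` are measurable: unfold `Prod.Lex.lt_iff`) -/
theorem measurable_gain (g : E → Option κ) : Measurable (fun x : St E => (gain g x : ℝ≥0∞)) := by
  refine measurable_coe_nnreal_ennreal.comp ?_
  unfold gain
  exact Finset.measurable_sum _ (fun k _ => measurable_algW _)

theorem measurableSet_win (g : E → Option κ) (e : E) : MeasurableSet {x : St E | win g x e} :=
  measurableSet_setOfPred.2 (measurable_win g e)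

variable {Ω₀ : Type} [MeasurableSpace Ω₀] [DiscreteMeasurableSpace Ω₀]

open Classical in
/-- the decision function of the rule; the seed is `(ω, bits)` -/
noncomputable def decC (cls : Ω₀ → E → Option κ) (past : List E) (e : E) (S : E → ℝ≥0)
    (s : Ω₀ × (E → Bool)) (v : E → ℝ≥0) : Bool :=
  decide (cls s.1 e ≠ none ∧ win (cls s.1) ((S, v), s.2) e ∧
    ∀ f ∈ past, cls s.1 f = cls s.1 e → ¬ win (cls s.1) ((S, v), s.2) f)

theorem decC_nonant (cls : Ω₀ → E → Option κ) (past : List E) (e : E) (S : E → ℝ≥0)
    (s : Ω₀ × (E → Bool)) (v v' : E → ℝ≥0) (h : ∀ f, f = e ∨ f ∈ past → v f = v' f) :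
    decC cls past e S s v = decC cls past e S s v' := by
  unfold decC
  congr 1
  rw [win_congr (cls s.1) S v v' s.2 e (h e (Or.inl rfl))]
  have : (∀ f ∈ past, cls s.1 f = cls s.1 e → ¬ win (cls s.1) ((S, v), s.2) f) ↔
      (∀ f ∈ past, cls s.1 f = cls s.1 e → ¬ win (cls s.1) ((S, v'), s.2) f) := by
    refine forall_congr' (fun f => ?_)
    refine imp_congr_right (fun hf => ?_)
    rw [win_congr (cls s.1) S v v' s.2 f (h f (Or.inr hf))]
  rw [this]

theorem decC_meas [Countable Ω₀] (cls : Ω₀ → E → Option κ) (past : List E) (e : E) :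
    Measurable (fun x : (E → ℝ≥0) × (Ω₀ × (E → Bool)) × (E → ℝ≥0) =>
      decC cls past e x.1 x.2.1 x.2.2) := by
  refine measurable_to_bool ?_
  have h : (fun x : (E → ℝ≥0) × (Ω₀ × (E → Bool)) × (E → ℝ≥0) =>
      decC cls past e x.1 x.2.1 x.2.2) ⁻¹' {true} =
      {x | ∀ ω : Ω₀, x.2.1.1 = ω → (cls ω e ≠ none ∧ win (cls ω) ((x.1, x.2.2), x.2.1.2) e ∧
        ∀ f, f ∈ past → cls ω f = cls ω e → ¬ win (cls ω) ((x.1, x.2.2), x.2.1.2) f)} := by
    ext x
    simp only [Set.mem_preimage, Set.mem_singleton_iff, decC, decide_eq_true_eq, Set.mem_ofPred_eq,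
      forall_eq']
  rw [h]
  have mm : Measurable (fun x : (E → ℝ≥0) × (Ω₀ × (E → Bool)) × (E → ℝ≥0) =>
      (((x.1, x.2.2), x.2.1.2) : St E)) := by fun_prop
  have m1 : Measurable (fun x : (E → ℝ≥0) × (Ω₀ × (E → Bool)) × (E → ℝ≥0) => x.2.1.1) := by
    fun_prop
  refine measurableSet_setOfPred.2 ?_
  refine Measurable.forall (fun ω => Measurable.imp
    (measurableSet_setOfPred.1 (m1 (measurableSet_singleton ω))) ?_)
  refine Measurable.and measurable_const (Measurable.and
    ((measurable_win (cls ω) e).comp mm) ?_)
  refine Measurable.forall (fun f => Measurable.imp measurable_const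
    (Measurable.imp measurable_const ?_))
  exact ((measurable_win (cls ω) f).comp mm).not

/-- R1: the rule -/
noncomputable def classRule [Countable Ω₀] (cls : Ω₀ → E → Option κ) :
    Rule E (Ω₀ × (E → Bool)) where
  dec := decC cls
  nonant := fun past e S ω v v' h => decC_nonant cls past e S ω v v' h
  meas := fun past e => decC_meas cls past e

omit [Fintype E] in
theorem mem_run_iff {κ : Type} (d : List E → E → Bool) (g : E → Option κ) (W : E → Prop)
    (hd : ∀ past e, d past e = true ↔
      (g e ≠ none ∧ W e ∧ ∀ f ∈ past, g f = g e → ¬ W f)) (l : List E) :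
    ∀ past : List E, l.Nodup → ∀ e, e ∈ run d past l ↔
      (e ∈ l ∧ g e ≠ none ∧ W e ∧ (∀ f ∈ past, g f = g e → ¬ W f) ∧
        ∀ f ∈ l, g f = g e → W f → l.idxOf e ≤ l.idxOf f) := by
  induction l with
  | nil =>
    intro past _ e
    simp [run]
  | cons a rest ih =>
    intro past hnd e
    have hnd' : rest.Nodup := (List.nodup_cons.mp hnd).2
    have ha : a ∉ rest := (List.nodup_cons.mp hnd).1
    have hrun : e ∈ run d past (a :: rest) ↔
        (d past a = true ∧ e = a) ∨ e ∈ run d (a :: past) rest := by
      simp only [run, Finset.mem_union]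
      by_cases hda : d past a = true
      · simp [hda]
      · simp [hda]
    rw [hrun, ih (a :: past) hnd' e]
    by_cases hea : e = a
    · subst hea
      constructor
      · rintro (⟨h1, _⟩ | ⟨h1, _⟩)
        · obtain ⟨h2, h3, h4⟩ := (hd past e).mp h1
          refine ⟨List.mem_cons_self, h2, h3, h4, ?_⟩
          intro f _ _ _
          simp
        · exact absurd h1 ha
      · rintro ⟨_, h2, h3, h4, _⟩
        exact Or.inl ⟨(hd past e).mpr ⟨h2, h3, h4⟩, rfl⟩
    · have hidx : ∀ f, f ≠ a → (a :: rest).idxOf f = rest.idxOf f + 1 := by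
        intro f hf
        rw [List.idxOf_cons_ne _ (Ne.symm hf)]
      constructor
      · rintro (⟨_, h1⟩ | ⟨h1, h2, h3, h4, h5⟩)
        · exact absurd h1 hea
        · refine ⟨List.mem_cons_of_mem _ h1, h2, h3,
            fun f hf => h4 f (List.mem_cons_of_mem _ hf), ?_⟩
          intro f hf hgf hWf
          rcases List.mem_cons.mp hf with rfl | hf'
          · exact absurd hWf (h4 f List.mem_cons_self hgf)
          · have hfa : f ≠ a := fun h => ha (h ▸ hf')
            rw [hidx e hea, hidx f hfa]
            exact Nat.succ_le_succ (h5 f hf' hgf hWf)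
      · rintro ⟨h1, h2, h3, h4, h5⟩
        right
        have h1' : e ∈ rest := (List.mem_cons.mp h1).resolve_left hea
        refine ⟨h1', h2, h3, ?_, ?_⟩
        · intro f hf hgf hWf
          rcases List.mem_cons.mp hf with rfl | hf'
          · have := h5 f List.mem_cons_self hgf hWf
            rw [hidx e hea] at this
            simp at this
          · exact h4 f hf' hgf hWf
        · intro f hf hgf hWf
          have hfa : f ≠ a := fun h => ha (h ▸ hf)
          have := h5 f (List.mem_cons_of_mem _ hf) hgf hWf
          rw [hidx e hea, hidx f hfa] at this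
          exact Nat.le_of_succ_le_succ this

/-- R2a: description of the accepted set -/
theorem mem_accepted_iff [Countable Ω₀] (cls : Ω₀ → E → Option κ) (S v : E → ℝ≥0)
    (s : Ω₀ × (E → Bool)) (l : List E) (hl : IsOrder l) (e : E) :
    e ∈ (classRule cls).accepted S s v l ↔
      cls s.1 e ≠ none ∧ win (cls s.1) ((S, v), s.2) e ∧
        ∀ f, cls s.1 f = cls s.1 e → win (cls s.1) ((S, v), s.2) f →
          l.idxOf e ≤ l.idxOf f := by
  have hd : ∀ past e, decC cls past e S s v = true ↔
      (cls s.1 e ≠ none ∧ win (cls s.1) ((S, v), s.2) e ∧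
        ∀ f ∈ past, cls s.1 f = cls s.1 e → ¬ win (cls s.1) ((S, v), s.2) f) := by
    intro past e
    unfold decC
    simp only [decide_eq_true_eq]
  have h := mem_run_iff (fun past e => decC cls past e S s v) (cls s.1)
    (win (cls s.1) ((S, v), s.2)) hd l [] hl.1 e
  have hacc : (classRule cls).accepted S s v l =
      run (fun past e => decC cls past e S s v) [] l := rfl
  rw [hacc, h]
  constructor
  · rintro ⟨_, h2, h3, _, h5⟩
    exact ⟨h2, h3, fun f hgf hWf => h5 f (hl.2 f) hgf hWf⟩
  · rintro ⟨h2, h3, h5⟩
    exact ⟨hl.2 e, h2, h3, by simp, fun f _ hgf hWf => h5 f hgf hWf⟩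

/-- R2: accepted elements are labelled and have pairwise different labels -/
theorem accepted_labels [Countable Ω₀] (cls : Ω₀ → E → Option κ) (S v : E → ℝ≥0)
    (s : Ω₀ × (E → Bool)) (l : List E) (hl : IsOrder l) :
    (∀ e ∈ (classRule cls).accepted S s v l, cls s.1 e ≠ none) ∧
      ∀ e ∈ (classRule cls).accepted S s v l, ∀ f ∈ (classRule cls).accepted S s v l,
        cls s.1 e = cls s.1 f → e = f := by
  constructor
  · intro e he
    exact ((mem_accepted_iff cls S v s l hl e).mp he).1
  · intro e he f hf hef
    obtain ⟨_, hwe, h5e⟩ := (mem_accepted_iff cls S v s l hl e).mp he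
    obtain ⟨_, hwf, h5f⟩ := (mem_accepted_iff cls S v s l hl f).mp hf
    have h1 := h5e f hef.symm hwf
    have h2 := h5f e hef hwe
    exact (List.idxOf_inj (hl.2 e)).mp (le_antisymm h1 h2)

/-- R3: whatever the order, the rule collects at least `gain` -/
theorem gain_le_accepted [Countable Ω₀] (cls : Ω₀ → E → Option κ) (S v : E → ℝ≥0)
    (s : Ω₀ × (E → Bool)) (l : List E) (hl : IsOrder l) :
    gain (cls s.1) ((S, v), s.2) ≤ val v ((classRule cls).accepted S s v l) := by
  have hk : ∀ k : κ, algW wTok (tk ((S, v), s.2)) (cell (cls s.1) k) (fun _ => false) ≤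
      ∑ e ∈ (classRule cls).accepted S s v l, (if cls s.1 e = some k then v e else 0) := by
    intro k
    unfold algW
    by_cases hne : (good (tk ((S, v), s.2)) (cell (cls s.1) k) (fun _ => false)).Nonempty
    · rw [dif_pos hne]
      obtain ⟨a, ha, hmin⟩ := Finset.exists_min_image _ (fun e => l.idxOf e) hne
      have hgood : ∀ i, i ∈ good (tk ((S, v), s.2)) (cell (cls s.1) k) (fun _ => false) ↔
          cls s.1 i = some k ∧ win (cls s.1) ((S, v), s.2) i := by
        intro i
        unfold good cell win
        simp only [Finset.mem_filter, Finset.mem_univ, true_and]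
        constructor
        · rintro ⟨h1, h2⟩
          refine ⟨h1, fun f hf => ?_⟩
          have := h2 f (hf.trans h1)
          simpa [tk] using this
        · rintro ⟨h1, h2⟩
          refine ⟨h1, fun j hj => ?_⟩
          have := h2 j (hj.trans h1.symm)
          simpa [tk] using this
      obtain ⟨hga, hwa⟩ := (hgood a).mp ha
      have haA : a ∈ (classRule cls).accepted S s v l := by
        rw [mem_accepted_iff cls S v s l hl a]
        refine ⟨by rw [hga]; simp, hwa, fun f hgf hWf =>
          hmin f ((hgood f).mpr ⟨hgf.trans hga, hWf⟩)⟩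
      calc (good (tk ((S, v), s.2)) (cell (cls s.1) k) (fun _ => false)).inf' hne
            (fun i => wTok (tk ((S, v), s.2) i false))
          ≤ wTok (tk ((S, v), s.2) a false) :=
            Finset.inf'_le (fun i => wTok (tk ((S, v), s.2) i false)) ha
        _ = v a := by simp [tk, tokV, wTok]
        _ = (if cls s.1 a = some k then v a else 0) := by rw [if_pos hga]
        _ ≤ _ := Finset.single_le_sum
            (f := fun e => if cls s.1 e = some k then v e else 0) (fun _ _ => zero_le) haA
    · rw [dif_neg hne]
      exact zero_le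
  unfold gain val
  calc ∑ k, algW wTok (tk ((S, v), s.2)) (cell (cls s.1) k) (fun _ => false)
      ≤ ∑ k, ∑ e ∈ (classRule cls).accepted S s v l,
          (if cls s.1 e = some k then v e else 0) := Finset.sum_le_sum (fun k _ => hk k)
    _ = ∑ e ∈ (classRule cls).accepted S s v l, ∑ k,
          (if cls s.1 e = some k then v e else 0) := Finset.sum_comm
    _ ≤ ∑ e ∈ (classRule cls).accepted S s v l, v e := by
        apply Finset.sum_le_sum
        intro e _
        cases hge : cls s.1 e with
        | none => simp
        | some k₀ => simp [Finset.sum_ite_eq]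

end Vale.Agent.Lib.P331
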