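import Vale.Agent.Lib.P331.Graphic

/-!
# P331 unit K: transversal matroids of bounded element degree and column-sparse linear matroids
have the partition property
-/

open scoped NNReal ENNReal

namespace Vale.Agent.Lib.P331

variable {E : Type} [Fintype E] [DecidableEq E]
variable {W : Type} [Fintype W] [DecidableEq W]

/-! ## transversal matroids -/

/-- independence in the transversal matroid of the bipartite graph `e ~ r ↔ r ∈ nb e`:
the elements of `I` can be matched injectively to neighbours -/
def Matchable (nb : E → Finset W) (I : Finset E) : Prop :=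
  ∃ φ : {e // e ∈ I} → W, Function.Injective φ ∧ ∀ e, φ e ∈ nb e.1

/-- K0: label number `ω` of `e` = the `ω`-th neighbour of `e` (in some fixed enumeration).
`indep`: the labels are a matching.  `approx`: `opt_le_of_forall`; for `I` matched by `φ` choose
`w e : Fin k` with `(nb e).toList[w e]? = some (φ e)`; `val v I = ∑ ω, val v (I.filter (w · = ω))`
and `val_le_sum_cell_sup` for every `ω`. -/
theorem transversal_partition (nb : E → Finset W) (k : ℕ) (hk : 0 < k)
    (hdeg : ∀ e, (nb e).card ≤ k) :
    PartitionProperty (Matchable nb) (k : ℝ≥0) (Fin k) W (fun _ => (k : ℝ≥0)⁻¹)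
      (fun ω e => (nb e).toList[(ω : ℕ)]?) := by
  classical
  have hk0 : (k : ℝ≥0) ≠ 0 := by exact_mod_cast hk.ne'
  refine ⟨?_, ?_, ?_⟩
  · simp [hk0]
  · intro ω I h0 h1
    have hex : ∀ e : {e // e ∈ I}, ∃ r, (nb e.1).toList[(ω : ℕ)]? = some r := fun e =>
      Option.ne_none_iff_exists'.mp (h0 e.1 e.2)
    choose φ hφ using hex
    refine ⟨φ, ?_, ?_⟩
    · intro e f hef
      apply Subtype.ext
      apply h1 e.1 e.2 f.1 f.2
      show (nb e.1).toList[(ω : ℕ)]? = (nb f.1).toList[(ω : ℕ)]?
      rw [hφ e, hφ f, hef]
    · intro e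
      have := List.mem_of_getElem? (hφ e)
      simpa using this
  · intro v
    apply opt_le_of_forall
    rintro I ⟨φ, hinj, hmem⟩
    have hex : ∀ e : {e // e ∈ I}, ∃ ω : Fin k, (nb e.1).toList[(ω : ℕ)]? = some (φ e) := by
      intro e
      have h1 : φ e ∈ (nb e.1).toList := by simpa using hmem e
      obtain ⟨i, hi, hie⟩ := List.getElem_of_mem h1
      have hlen : i < k := lt_of_lt_of_le (by simpa using hi) (hdeg e.1)
      exact ⟨⟨i, hlen⟩, by simp [List.getElem?_eq_getElem hi, hie]⟩
    choose w hw using hex
    let w' : E → Fin k := fun e => if h : e ∈ I then w ⟨e, h⟩ else ⟨0, hk⟩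
    have hsplit : val v I = ∑ ω : Fin k, val v (I.filter (fun e => w' e = ω)) := by
      unfold val
      exact (Finset.sum_fiberwise I w' v).symm
    have hpart : ∀ ω : Fin k, val v (I.filter (fun e => w' e = ω)) ≤
        ∑ r, (cell (fun e => (nb e).toList[(ω : ℕ)]?) r).sup v := by
      intro ω
      have hlab : ∀ e (he : e ∈ I.filter (fun e => w' e = ω)),
          (nb e).toList[(ω : ℕ)]? = some (φ ⟨e, (Finset.mem_filter.mp he).1⟩) := by
        intro e he
        have heI := (Finset.mem_filter.mp he).1
        have hwe : w' e = ω := (Finset.mem_filter.mp he).2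
        have : w ⟨e, heI⟩ = ω := by simpa [w', heI] using hwe
        have h2 := hw ⟨e, heI⟩
        rw [this] at h2
        exact h2
      apply val_le_sum_cell_sup
      · intro e he
        rw [hlab e he]; simp
      · intro e he f hf hef
        rw [hlab e he, hlab f hf] at hef
        have := hinj (Option.some.inj hef)
        exact congrArg Subtype.val this
    calc val v I = ∑ ω : Fin k, val v (I.filter (fun e => w' e = ω)) := hsplit
      _ ≤ ∑ ω : Fin k, ∑ r, (cell (fun e => (nb e).toList[(ω : ℕ)]?) r).sup v :=
          Finset.sum_le_sum fun ω _ => hpart ω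
      _ = (k : ℝ≥0) * ∑ ω : Fin k, (k : ℝ≥0)⁻¹ *
            ∑ r, (cell (fun e => (nb e).toList[(ω : ℕ)]?) r).sup v := by
          rw [← Finset.mul_sum, ← mul_assoc, mul_inv_cancel₀ hk0, one_mul]

/-! ## column-sparse linear matroids -/

variable {F : Type} [Field F]

/-- independence in the linear matroid of the columns of the matrix `A` (rows `W`, columns `E`) -/
def ColIndep (A : W → E → F) (I : Finset E) : Prop :=
  LinearIndependent F (fun e : I => fun r : W => A r e)

open Classical in
/-- the rows in which the column `e` is non zero -/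
noncomputable def csupp (A : W → E → F) (e : E) : Finset W :=
  Finset.univ.filter (fun r => A r e ≠ 0)

/-- the label of the column `e` for the ordering `σ` of the rows: its first non zero row -/
noncomputable def lab (A : W → E → F) (σ : W ≃ Fin (Fintype.card W)) (e : E) : Option W :=
  if h : (csupp A e).Nonempty then some (σ.symm (((csupp A e).image σ).min' (h.image σ))) else none

/-- K1a -/
theorem lab_eq_some_iff (A : W → E → F) (σ : W ≃ Fin (Fintype.card W)) (e : E) (r : W) :
    lab A σ e = some r ↔ r ∈ csupp A e ∧ ∀ t ∈ csupp A e, σ r ≤ σ t := by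
  unfold lab
  by_cases h : (csupp A e).Nonempty
  · rw [dif_pos h]
    constructor
    · intro hr
      have hr' : σ.symm (((csupp A e).image σ).min' (h.image σ)) = r := by simpa using hr
      have hm := Finset.min'_mem ((csupp A e).image σ) (h.image σ)
      have hσ : σ r = ((csupp A e).image σ).min' (h.image σ) := by
        rw [← hr']; simp
      refine ⟨?_, ?_⟩
      · rw [← hσ] at hm
        obtain ⟨t, ht, hte⟩ := Finset.mem_image.mp hm
        have := σ.injective hte
        rwa [← this]
      · intro t ht
        rw [hσ]
        exact Finset.min'_le _ _ (Finset.mem_image_of_mem σ ht)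
    · rintro ⟨hr, hmin⟩
      have : ((csupp A e).image σ).min' (h.image σ) = σ r := by
        apply le_antisymm
        · exact Finset.min'_le _ _ (Finset.mem_image_of_mem σ hr)
        · apply Finset.le_min'
          intro y hy
          obtain ⟨t, ht, rfl⟩ := Finset.mem_image.mp hy
          exact hmin t ht
      rw [this]; simp
  · rw [dif_neg h]
    constructor
    · intro hh; cases hh
    · rintro ⟨hr, -⟩
      exact absurd ⟨r, hr⟩ h

theorem mem_csupp (A : W → E → F) (e : E) (r : W) : r ∈ csupp A e ↔ A r e ≠ 0 := by
  simp [csupp]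

/-- K1b: columns with pairwise different first non zero rows are independent.  In a vanishing
combination take, among the columns with non zero coefficient, the column `e₀` whose label `r` is
`σ`-first; all other such columns vanish in row `r`, so the coefficient of `e₀` is zero. -/
theorem colIndep_of_lab (A : W → E → F) (σ : W ≃ Fin (Fintype.card W)) (I : Finset E)
    (h0 : ∀ e ∈ I, lab A σ e ≠ none) (h1 : ∀ e ∈ I, ∀ f ∈ I, lab A σ e = lab A σ f → e = f) :
    ColIndep A I := by
  classical
  unfold ColIndep
  rw [Fintype.linearIndependent_iff]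
  intro g hg
  by_contra hne
  push Not at hne
  have hex : ∀ i : I, ∃ r, lab A σ i = some r := by
    intro i
    exact Option.ne_none_iff_exists'.mp (h0 i i.2)
  choose rr hrr using hex
  have hS : (Finset.univ.filter (fun i : I => g i ≠ 0)).Nonempty := by
    obtain ⟨i, hi⟩ := hne
    exact ⟨i, by simp [hi]⟩
  obtain ⟨i0, hi0, hmin⟩ := Finset.exists_min_image _ (fun i : I => σ (rr i)) hS
  have hgi0 : g i0 ≠ 0 := by simpa using hi0
  have hrow := congrFun hg (rr i0)
  simp only [Finset.sum_apply, Pi.smul_apply, smul_eq_mul, Pi.zero_apply] at hrow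
  have hsingle : ∑ i : I, g i * A (rr i0) i = g i0 * A (rr i0) i0 := by
    apply Finset.sum_eq_single i0
    · intro i _ hii
      by_cases hgi : g i = 0
      · simp [hgi]
      · have hle : σ (rr i0) ≤ σ (rr i) := hmin i (by simp [hgi])
        by_cases hA : A (rr i0) i = 0
        · simp [hA]
        · exfalso
          have hmem : rr i0 ∈ csupp A i := (mem_csupp A i _).mpr hA
          have hle2 := ((lab_eq_some_iff A σ i (rr i)).mp (hrr i)).2 _ hmem
          have heq : rr i = rr i0 := σ.injective (le_antisymm hle2 hle)
          have : (i : E) = i0 := h1 i i.2 i0 i0.2 (by rw [hrr i, hrr i0, heq])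
          exact hii (Subtype.ext this)
    · intro h; exact absurd (Finset.mem_univ _) h
  rw [hsingle] at hrow
  have hA0 : A (rr i0) i0 ≠ 0 :=
    (mem_csupp A i0 _).mp ((lab_eq_some_iff A σ i0 (rr i0)).mp (hrr i0)).1
  exact (mul_ne_zero hgi0 hA0) hrow

/-- K2: independent columns have a transversal of non zero entries.  Hall's theorem
(`Finset.all_card_le_biUnion_card_iff_exists_injective`): the columns of `J ⊆ I` are independent
and supported on `N = J.biUnion (csupp A)`, so `J.card ≤ N.card` (restrict the vectors to `N`:
still independent in `N → F`, of dimension `N.card`). -/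
theorem exists_transversal_sub (A : W → E → F) (I : Finset E) (h : ColIndep A I) :
    ∃ φ : {e // e ∈ I} → W, Function.Injective φ ∧ ∀ e, A (φ e) e.1 ≠ 0 := by
  classical
  have mem_cs : ∀ (e : E) (r : W), r ∈ csupp A e ↔ A r e ≠ 0 := by
    intro e r
    simp [csupp]
  have hall := (Finset.all_card_le_biUnion_card_iff_exists_injective
    (fun e : {e // e ∈ I} => csupp A e.1)).1 ?_
  · obtain ⟨f, hf, hm⟩ := hall
    exact ⟨f, hf, fun e => (mem_cs e.1 (f e)).1 (hm e)⟩
  · intro s
    set N : Finset W := s.biUnion (fun e : {e // e ∈ I} => csupp A e.1) with hN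
    -- extension by zero
    let g : ({r // r ∈ N} → F) →ₗ[F] (W → F) :=
      { toFun := fun x r => if hr : r ∈ N then x ⟨r, hr⟩ else 0
        map_add' := by
          intro x y
          funext r
          by_cases hr : r ∈ N <;> simp [hr]
        map_smul' := by
          intro c x
          funext r
          by_cases hr : r ∈ N <;> simp [hr] }
    have h1 : LinearIndependent F (fun e : {e // e ∈ s} => fun r : W => A r e.1.1) :=
      h.comp (fun e : {e // e ∈ s} => e.1) Subtype.val_injective
    have h2 : LinearIndependent F
        (fun e : {e // e ∈ s} => fun r : {r // r ∈ N} => A r.1 e.1.1) := by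
      refine LinearIndependent.of_comp g ?_
      convert h1 using 1
      funext e r
      by_cases hr : r ∈ N
      · simp [g, hr]
      · have : A r e.1.1 = 0 := by
          by_contra hne
          exact hr (Finset.mem_biUnion.2 ⟨e.1, e.2, (mem_cs _ _).2 hne⟩)
        simp [g, hr, this]
    have h3 := h2.fintype_card_le_finrank
    rw [Module.finrank_fintype_fun_eq_card] at h3
    simpa using h3

/-- K2, option form (for K4; true also when there is no row at all) -/
theorem exists_transversal_opt (A : W → E → F) (I : Finset E) (h : ColIndep A I) :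
    ∃ ψ : E → Option W, (∀ e ∈ I, ∃ r, ψ e = some r ∧ A r e ≠ 0) ∧ Set.InjOn ψ (I : Set E) := by
  classical
  obtain ⟨φ, hφ, hA⟩ := exists_transversal_sub A I h
  refine ⟨fun e => if he : e ∈ I then some (φ ⟨e, he⟩) else none, ?_, ?_⟩
  · intro e he
    exact ⟨φ ⟨e, he⟩, by simp [he], hA ⟨e, he⟩⟩
  · intro e he f hf hef
    have he' : e ∈ I := he
    have hf' : f ∈ I := hf
    simp only [he', hf', dif_pos, Option.some.injEq] at hef
    simpa using hφ hef

/-- K2, original form (needs at least one row: otherwise there is no function `E → W`) -/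
theorem exists_transversal [Nonempty W] (A : W → E → F) (I : Finset E) (h : ColIndep A I) :
    ∃ φ : E → W, (∀ e ∈ I, A (φ e) e ≠ 0) ∧ Set.InjOn φ (I : Set E) := by
  classical
  obtain ⟨φ, hφ, hA⟩ := exists_transversal_sub A I h
  refine ⟨fun e => if he : e ∈ I then φ ⟨e, he⟩ else Classical.arbitrary W, ?_, ?_⟩
  · intro e he
    simpa [he] using hA ⟨e, he⟩
  · intro e he f hf hef
    have he' : e ∈ I := he
    have hf' : f ∈ I := hf
    simp only [he', hf', dif_pos] at hef
    simpa using hφ hef

/-- K3: in a uniformly random ordering every element of `T` is the first of `T` with probability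
`1 / T.card`.  The sets `Q r = {σ | ∀ t ∈ T, σ r ≤ σ t}`, `r ∈ T`, are pairwise disjoint, cover
everything, and `σ ↦ (Equiv.swap r r').trans σ` is a bijection from `Q r` to `Q r'`. -/
theorem card_first_mul (T : Finset W) (r : W) (hr : r ∈ T) :
    T.card * (Finset.univ.filter
      (fun σ : W ≃ Fin (Fintype.card W) => ∀ t ∈ T, σ r ≤ σ t)).card =
      Fintype.card (W ≃ Fin (Fintype.card W)) := by
  classical
  set Q : W → Finset (W ≃ Fin (Fintype.card W)) := fun r =>
    Finset.univ.filter (fun σ : W ≃ Fin (Fintype.card W) => ∀ t ∈ T, σ r ≤ σ t) with hQ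
  -- all Q r' , r' ∈ T, have the same cardinality
  have hcard : ∀ r' ∈ T, (Q r').card = (Q r).card := by
    intro r' hr'
    refine Finset.card_bij (fun σ _ => (Equiv.swap r r').trans σ) ?_ ?_ ?_
    · intro σ hσ
      simp only [hQ, Finset.mem_filter, Finset.mem_univ, true_and] at hσ ⊢
      intro t ht
      simp only [Equiv.trans_apply, Equiv.swap_apply_left]
      by_cases h1 : t = r
      · subst h1
        simp only [Equiv.swap_apply_left]
        exact le_rfl
      · by_cases h2 : t = r'
        · subst h2
          simp only [Equiv.swap_apply_right]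
          exact hσ r hr
        · rw [Equiv.swap_apply_of_ne_of_ne h1 h2]
          exact hσ t ht
    · intro σ _ τ _ h
      refine Equiv.ext fun x => ?_
      have := congrArg (fun ρ : W ≃ Fin (Fintype.card W) => ρ (Equiv.swap r r' x)) h
      simpa using this
    · intro τ hτ
      refine ⟨(Equiv.swap r r').trans τ, ?_, ?_⟩
      · simp only [hQ, Finset.mem_filter, Finset.mem_univ, true_and] at hτ ⊢
        intro t ht
        simp only [Equiv.trans_apply, Equiv.swap_apply_right]
        by_cases h1 : t = r
        · subst h1
          simp only [Equiv.swap_apply_left]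
          exact hτ r' hr'
        · by_cases h2 : t = r'
          · subst h2
            simp only [Equiv.swap_apply_right]
            exact le_rfl
          · rw [Equiv.swap_apply_of_ne_of_ne h1 h2]
            exact hτ t ht
      · refine Equiv.ext fun x => ?_
        simp
  -- the Q r' partition everything
  have hdisj : ∀ a ∈ T, ∀ b ∈ T, a ≠ b → Disjoint (Q a) (Q b) := by
    intro a ha b hb hab
    rw [Finset.disjoint_left]
    intro σ h1 h2
    simp only [hQ, Finset.mem_filter, Finset.mem_univ, true_and] at h1 h2
    exact hab (σ.injective (le_antisymm (h1 b hb) (h2 a ha)))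
  have hcover : T.biUnion Q = Finset.univ := by
    ext σ
    simp only [Finset.mem_biUnion, Finset.mem_univ, iff_true]
    obtain ⟨a, ha, hmin⟩ := Finset.exists_min_image T (fun t => σ t) ⟨r, hr⟩
    exact ⟨a, ha, by simpa [hQ] using hmin⟩
  have := Finset.card_biUnion hdisj
  rw [hcover, Finset.sum_congr rfl hcard, Finset.sum_const, smul_eq_mul, Finset.card_univ] at this
  exact this.symm

/-- K4: matrices with at most `k` non zero entries in every column: `k`-partition property.
`indep`: K1b.  `approx`: `opt_le_of_forall`; for `I` independent take `φ` from K2; for every `σ`,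
`val v (I.filter (fun e => lab A σ e = some (φ e))) ≤ ∑ r, (cell (lab A σ) r).sup v`
(`val_le_sum_cell_sup`); sum over `σ`, exchange the sums and use K3 with `T = csupp A e`,
`r = φ e` (K1a): every `e ∈ I` is counted for at least `card Ω / k` orderings. -/
theorem sparse_partition (A : W → E → F) (k : ℕ) (hk : 0 < k)
    (hs : ∀ e, (csupp A e).card ≤ k) :
    PartitionProperty (ColIndep A) (k : ℝ≥0) (W ≃ Fin (Fintype.card W)) W
      (fun _ => (Fintype.card (W ≃ Fin (Fintype.card W)) : ℝ≥0)⁻¹) (lab A) := by
  classical
  have hM : (0 : ℝ≥0) < (Fintype.card (W ≃ Fin (Fintype.card W)) : ℝ≥0) := by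
    haveI : Nonempty (W ≃ Fin (Fintype.card W)) := ⟨Fintype.equivFin W⟩
    exact_mod_cast Fintype.card_pos
  refine ⟨?_, ?_, ?_⟩
  · rw [Finset.sum_const, Finset.card_univ, nsmul_eq_mul]
    exact mul_inv_cancel₀ hM.ne'
  · intro σ I h0 h1
    exact colIndep_of_lab A σ I h0 h1
  · intro v
    refine opt_le_of_forall _ _ _ fun I hI => ?_
    obtain ⟨ψ, hψ, hinj⟩ := exists_transversal_opt A I hI
    set M : ℝ≥0 := (Fintype.card (W ≃ Fin (Fintype.card W)) : ℝ≥0) with hMdef
    -- step 1: every ordering
    have s1 : ∀ σ : W ≃ Fin (Fintype.card W),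
        val v (I.filter (fun e => lab A σ e = ψ e)) ≤ ∑ r, (cell (lab A σ) r).sup v := by
      intro σ
      refine val_le_sum_cell_sup _ v _ ?_ ?_
      · intro e he
        rw [Finset.mem_filter] at he
        obtain ⟨r, hr, -⟩ := hψ e he.1
        rw [he.2, hr]
        exact Option.some_ne_none r
      · intro e he f hf hef
        rw [Finset.mem_filter] at he hf
        exact hinj he.1 hf.1 (by rw [← he.2, ← hf.2, hef])
    -- step 2: counting
    have s2 : ∀ e ∈ I, M ≤ (k : ℝ≥0) *
        ((Finset.univ.filter (fun σ : W ≃ Fin (Fintype.card W) => lab A σ e = ψ e)).card : ℝ≥0) := by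
      intro e he
      obtain ⟨r, hr, hA⟩ := hψ e he
      have hmem : r ∈ csupp A e := (mem_csupp A e r).2 hA
      have hset : (Finset.univ.filter (fun σ : W ≃ Fin (Fintype.card W) => lab A σ e = ψ e)) =
          Finset.univ.filter
            (fun σ : W ≃ Fin (Fintype.card W) => ∀ t ∈ csupp A e, σ r ≤ σ t) := by
        ext σ
        simp only [Finset.mem_filter, Finset.mem_univ, true_and]
        rw [hr, lab_eq_some_iff]
        exact ⟨fun h => h.2, fun h => ⟨hmem, h⟩⟩
      rw [hset, hMdef, ← card_first_mul (csupp A e) r hmem]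
      push_cast
      exact mul_le_mul_left (by exact_mod_cast hs e) _
    -- step 3: exchange the sums
    have s3 : ∑ σ : W ≃ Fin (Fintype.card W), val v (I.filter (fun e => lab A σ e = ψ e)) =
        ∑ e ∈ I, v e *
        ((Finset.univ.filter (fun σ : W ≃ Fin (Fintype.card W) => lab A σ e = ψ e)).card : ℝ≥0) := by
      unfold val
      simp_rw [Finset.sum_filter]
      rw [Finset.sum_comm]
      refine Finset.sum_congr rfl fun e _ => ?_
      rw [← Finset.sum_filter, Finset.sum_const, nsmul_eq_mul, mul_comm]
    have s4 : M * val v I ≤ (k : ℝ≥0) *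
        ∑ σ : W ≃ Fin (Fintype.card W), ∑ r, (cell (lab A σ) r).sup v := by
      calc M * val v I = ∑ e ∈ I, v e * M := by
            unfold val
            rw [Finset.mul_sum]
            exact Finset.sum_congr rfl fun e _ => mul_comm _ _
        _ ≤ ∑ e ∈ I, v e * ((k : ℝ≥0) *
              ((Finset.univ.filter
                (fun σ : W ≃ Fin (Fintype.card W) => lab A σ e = ψ e)).card : ℝ≥0)) :=
            Finset.sum_le_sum fun e he => mul_le_mul_right (s2 e he) _
        _ = (k : ℝ≥0) * ∑ σ : W ≃ Fin (Fintype.card W),
              val v (I.filter (fun e => lab A σ e = ψ e)) := by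
            rw [s3, Finset.mul_sum]
            exact Finset.sum_congr rfl fun e _ => by ring
        _ ≤ _ := mul_le_mul_right (Finset.sum_le_sum fun σ _ => s1 σ) _
    rw [← Finset.mul_sum]
    calc val v I = M⁻¹ * (M * val v I) := by
          rw [← mul_assoc, inv_mul_cancel₀ hM.ne', one_mul]
      _ ≤ M⁻¹ * ((k : ℝ≥0) *
            ∑ σ : W ≃ Fin (Fintype.card W), ∑ r, (cell (lab A σ) r).sup v) :=
          mul_le_mul_right s4 _
      _ = _ := by ring

end Vale.Agent.Lib.P331
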